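import Vale.Agent.Lib.P371.Rho
import Mathlib.Analysis.Matrix.Order

open MeasureTheory FourierTransform SchwartzMap Set Filter
open scoped ENNReal Topology InnerProductSpace Matrix

noncomputable section

namespace Vale.Agent.Lib.P371

/-- The elementary optimisation over the scale `s`. -/
lemma algebra_key {ρ σ w α G : ℝ} (hρ : 0 ≤ ρ) (hσ : 0 ≤ σ) (hw : 0 ≤ w) (hα : 0 ≤ α) (hG : 0 < G)
    (h : ∀ s, 0 < s → √ρ ≤ √(α * s) + √(G / s ^ 2) * √σ) :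
    w * ρ ≤ 2 * σ + (3 / 2 * √(3 / 2) * α * √G) * w ^ (3 / 2 : ℝ) := by
  rcases eq_or_lt_of_le hw with h0 | hpos
  · rw [← h0, zero_mul, Real.zero_rpow (by norm_num), mul_zero, add_zero]
    positivity
  set s : ℝ := √(3 / 2) * √G * √w with hs
  have h32 : (0:ℝ) < √(3 / 2) := Real.sqrt_pos.mpr (by norm_num)
  have hG' : (0:ℝ) < √G := Real.sqrt_pos.mpr hG
  have hw' : (0:ℝ) < √w := Real.sqrt_pos.mpr hpos
  have hs0 : 0 < s := by positivity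
  have hss : s ^ 2 = 3 / 2 * G * w := by
    rw [hs, mul_pow, mul_pow, Real.sq_sqrt (by norm_num), Real.sq_sqrt hG.le, Real.sq_sqrt hw]
  have hmain := h s hs0
  set a : ℝ := √(α * s) with ha
  set b : ℝ := √(G / s ^ 2) * √σ with hb
  have ha2 : a ^ 2 = α * s := Real.sq_sqrt (by positivity)
  have hb2 : b ^ 2 = G / s ^ 2 * σ := by
    rw [hb, mul_pow, Real.sq_sqrt (by positivity), Real.sq_sqrt hσ]
  have hρ2 : ρ ≤ 3 / 2 * a ^ 2 + 3 * b ^ 2 := by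
    have h1 : ρ = √ρ ^ 2 := (Real.sq_sqrt hρ).symm
    have h2 : √ρ ^ 2 ≤ (a + b) ^ 2 := pow_le_pow_left₀ (Real.sqrt_nonneg _) hmain 2
    nlinarith [sq_nonneg (a - 2 * b)]
  have hrp : w ^ (3 / 2 : ℝ) = w * √w := by
    rw [show (3 / 2 : ℝ) = 1 + 1 / 2 by norm_num, Real.rpow_add hpos, Real.rpow_one,
      Real.sqrt_eq_rpow]
  have e1 : w * (3 * b ^ 2) = 2 * σ := by
    rw [hb2, hss]
    field_simp
  have e2 : w * (3 / 2 * a ^ 2) = (3 / 2 * √(3 / 2) * α * √G) * w ^ (3 / 2 : ℝ) := by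
    rw [ha2, hrp, hs]
    ring
  calc w * ρ ≤ w * (3 / 2 * a ^ 2 + 3 * b ^ 2) := mul_le_mul_of_nonneg_left hρ2 hw
    _ = _ := by rw [mul_add, e1, e2]; ring

variable {m : ℕ}

/-- Diagonalisation of the quadratic form of a Hermitian matrix. -/
lemma re_quadratic_eq {A : Matrix (Fin m) (Fin m) ℂ} (hA : A.IsHermitian)
    (y : EuclideanSpace ℂ (Fin m)) :
    (star y.ofLp ⬝ᵥ (A *ᵥ y.ofLp)).re =
      ∑ a, hA.eigenvalues a * ‖⟪hA.eigenvectorBasis a, y⟫_ℂ‖ ^ 2 := by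
  set b := hA.eigenvectorBasis with hb
  have h1 : y.ofLp = ∑ a, ⟪b a, y⟫_ℂ • (b a).ofLp := by
    conv_lhs => rw [← b.sum_repr' y]
    simp
  have h2 : A *ᵥ y.ofLp = ∑ a, (⟪b a, y⟫_ℂ * hA.eigenvalues a) • (b a).ofLp := by
    conv_lhs => rw [h1]
    rw [Matrix.mulVec_sum]
    refine Finset.sum_congr rfl fun a _ => ?_
    rw [Matrix.mulVec_smul, hA.mulVec_eigenvectorBasis a]
    ext i
    simp [mul_assoc, hb]
  have h3 : star y.ofLp ⬝ᵥ (A *ᵥ y.ofLp) =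
      ∑ a, ((hA.eigenvalues a * ‖⟪b a, y⟫_ℂ‖ ^ 2 : ℝ) : ℂ) := by
    rw [h2, dotProduct_sum]
    refine Finset.sum_congr rfl fun a _ => ?_
    rw [dotProduct_smul, smul_eq_mul]
    have e : star y.ofLp ⬝ᵥ (b a).ofLp = ⟪y, b a⟫_ℂ := by
      rw [EuclideanSpace.inner_eq_star_dotProduct, dotProduct_comm]
    rw [e, ← inner_conj_symm y (b a)]
    have e2 : starRingEnd ℂ ⟪b a, y⟫_ℂ * ⟪b a, y⟫_ℂ = ((‖⟪b a, y⟫_ℂ‖ ^ 2 : ℝ) : ℂ) := by
      rw [Complex.conj_mul']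
      push_cast
      rfl
    calc _ = (starRingEnd ℂ ⟪b a, y⟫_ℂ * ⟪b a, y⟫_ℂ) * (hA.eigenvalues a : ℂ) := by ring
      _ = _ := by
        rw [e2]
        push_cast
        ring
  rw [h3, Complex.re_sum]
  refine Finset.sum_congr rfl fun a _ => ?_
  exact Complex.ofReal_re _

end Vale.Agent.Lib.P371
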