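import Vale.Agent.Lib.P371.Heat

open MeasureTheory FourierTransform SchwartzMap Set Filter
open scoped ENNReal Topology InnerProductSpace Matrix ComplexOrder

noncomputable section

namespace Vale.Agent.Lib.P371

section General

variable {E : Type*} [NormedAddCommGroup E] [InnerProductSpace ℂ E] [CompleteSpace E]
  [MeasurableSpace E] [BorelSpace E]

lemma integral_norm_sq_Lp (a : Lp E 2 (volume : Measure ℝ)) :
    ∫ ξ, ‖(a : ℝ → E) ξ‖ ^ 2 = ‖a‖ ^ 2 := by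
  have h1 : ⟪a, a⟫_ℂ = ∫ ξ, ⟪(a : ℝ → E) ξ, (a : ℝ → E) ξ⟫_ℂ := L2.inner_def a a
  have h2 : ((∫ ξ, ‖(a : ℝ → E) ξ‖ ^ 2 : ℝ) : ℂ) = ((‖a‖ ^ 2 : ℝ) : ℂ) := by
    rw [← integral_complex_ofReal]
    have e : ∀ ξ, ((‖(a : ℝ → E) ξ‖ ^ 2 : ℝ) : ℂ) = ⟪(a : ℝ → E) ξ, (a : ℝ → E) ξ⟫_ℂ := by
      intro ξ
      push_cast
      exact (inner_self_eq_norm_sq_to_K (𝕜 := ℂ) ((a : ℝ → E) ξ)).symm
    simp only [e]
    rw [← h1]
    push_cast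
    exact inner_self_eq_norm_sq_to_K (𝕜 := ℂ) a
  exact_mod_cast h2

lemma integral_norm_sq_toLp {a : ℝ → E} (ha : MemLp a 2 volume) :
    ∫ x, ‖a x‖ ^ 2 = ‖ha.toLp a‖ ^ 2 := by
  rw [← integral_norm_sq_Lp]
  apply integral_congr_ae
  filter_upwards [ha.coeFn_toLp] with x hx
  rw [hx]

lemma integral_inner_toLp {a b : ℝ → E} (ha : MemLp a 2 volume) (hb : MemLp b 2 volume) :
    ∫ x, ⟪a x, b x⟫_ℂ = ⟪ha.toLp a, hb.toLp b⟫_ℂ := by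
  rw [L2.inner_def]
  apply integral_congr_ae
  filter_upwards [ha.coeFn_toLp, hb.coeFn_toLp] with x h1 h2
  rw [h1, h2]

/-- Everything about one function of the family on the Fourier side. -/
lemma fourier_facts {ψ ψ' : ℝ → E} (hψ : MemLp ψ 2 volume) (hψ' : MemLp ψ' 2 volume)
    (hftc : ∀ a b : ℝ, ∫ t in a..b, ψ' t = ψ b - ψ a) :
    (Integrable fun ξ => (2 * Real.pi * ξ) ^ 2 * ‖((𝓕 (hψ.toLp ψ) : Lp E 2 (volume : Measure ℝ)) : ℝ → E) ξ‖ ^ 2) ∧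
    (∫ ξ, (2 * Real.pi * ξ) ^ 2 * ‖((𝓕 (hψ.toLp ψ) : Lp E 2 (volume : Measure ℝ)) : ℝ → E) ξ‖ ^ 2
      = ∫ x, ‖ψ' x‖ ^ 2) ∧
    Integrable ((𝓕 (hψ.toLp ψ) : Lp E 2 (volume : Measure ℝ)) : ℝ → E) ∧
    𝓕⁻ ((𝓕 (hψ.toLp ψ) : Lp E 2 (volume : Measure ℝ)) : ℝ → E) =ᵐ[volume] ψ := by
  set Φ : Lp E 2 (volume : Measure ℝ) := 𝓕 (hψ.toLp ψ) with hΦ
  set Φ' : Lp E 2 (volume : Measure ℝ) := 𝓕 (hψ'.toLp ψ') with hΦ'
  have hd : (Φ' : ℝ → E) =ᵐ[volume] fun ξ => ((2 * Real.pi * Complex.I * ξ : ℂ)) • (Φ : ℝ → E) ξ :=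
    fourier_deriv_ae hψ hψ' hftc
  have hn : ∀ ξ : ℝ, ‖((2 * Real.pi * Complex.I * ξ : ℂ)) • (Φ : ℝ → E) ξ‖ ^ 2 =
      (2 * Real.pi * ξ) ^ 2 * ‖(Φ : ℝ → E) ξ‖ ^ 2 := by
    intro ξ
    rw [norm_smul, mul_pow]
    congr 1
    simp only [norm_mul, Complex.norm_I, Complex.norm_real, Complex.norm_ofNat, mul_one,
      Real.norm_eq_abs, abs_of_pos Real.pi_pos]
    rw [mul_pow, mul_pow, sq_abs]
    ring
  have hae : (fun ξ => (2 * Real.pi * ξ) ^ 2 * ‖(Φ : ℝ → E) ξ‖ ^ 2) =ᵐ[volume]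
      fun ξ => ‖(Φ' : ℝ → E) ξ‖ ^ 2 := by
    filter_upwards [hd] with ξ hξ
    rw [hξ, hn]
  have hI : Integrable fun ξ => (2 * Real.pi * ξ) ^ 2 * ‖(Φ : ℝ → E) ξ‖ ^ 2 :=
    (integrable_congr hae).mpr (integrable_sq_norm (Lp.memLp Φ'))
  have hE : ∫ ξ, (2 * Real.pi * ξ) ^ 2 * ‖(Φ : ℝ → E) ξ‖ ^ 2 = ∫ x, ‖ψ' x‖ ^ 2 := by
    rw [integral_congr_ae hae, integral_norm_sq_Lp, integral_norm_sq_toLp hψ', hΦ']
    rw [Lp.norm_fourier_eq]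
  have hm : StronglyMeasurable (Φ : ℝ → E) := Lp.stronglyMeasurable Φ
  -- integrability
  have h1 : Integrable (Φ : ℝ → E) := by
    have hs : MemLp (fun ξ : ℝ => Real.sqrt (1 + ξ ^ 2) * ‖(Φ : ℝ → E) ξ‖) 2 volume := by
      have hmm : AEStronglyMeasurable (fun ξ : ℝ => Real.sqrt (1 + ξ ^ 2) * ‖(Φ : ℝ → E) ξ‖) volume :=
        ((by fun_prop : Continuous fun ξ : ℝ => Real.sqrt (1 + ξ ^ 2)).aestronglyMeasurable).mul
          hm.norm.aestronglyMeasurable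
      rw [memLp_two_iff_integrable_sq hmm]
      have h0 : Integrable fun ξ => ‖(Φ : ℝ → E) ξ‖ ^ 2 := integrable_sq_norm (Lp.memLp Φ)
      have h2 : Integrable fun ξ => ‖(Φ : ℝ → E) ξ‖ ^ 2 +
          ((2 * Real.pi) ^ 2)⁻¹ * ((2 * Real.pi * ξ) ^ 2 * ‖(Φ : ℝ → E) ξ‖ ^ 2) :=
        h0.add (hI.const_mul _)
      refine (integrable_congr (Eventually.of_forall fun ξ => ?_)).mp h2
      simp only [mul_pow]
      rw [Real.sq_sqrt (by positivity)]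
      have := Real.pi_pos
      field_simp
    have h3 : Integrable (fun t => ‖Real.sqrt (1 + t ^ 2) * ‖(Φ : ℝ → E) t‖‖ * (Real.sqrt (1 + t ^ 2))⁻¹) volume :=
      (hs.norm).integrable_mul memLp_inv_sqrt
    have h4 : Integrable fun ξ => ‖(Φ : ℝ → E) ξ‖ := by
      refine (integrable_congr (Eventually.of_forall fun ξ => ?_)).mp h3
      have hp : 0 < Real.sqrt (1 + ξ ^ 2) := Real.sqrt_pos.mpr (by positivity)
      rw [Real.norm_eq_abs, abs_of_nonneg (by positivity)]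
      field_simp
    exact (integrable_norm_iff hm.aestronglyMeasurable).mp h4
  refine ⟨hI, hE, h1, ?_⟩
  have h2 : MemLp (Φ : ℝ → E) 2 volume := Lp.memLp Φ
  have h3 := coe_fourierInv_toLp_ae h1 h2
  have h4 : h2.toLp (Φ : ℝ → E) = Φ := Lp.toLp_coeFn Φ h2
  rw [h4, hΦ, fourierInv_fourier_eq] at h3
  exact h3.symm.trans hψ.coeFn_toLp

end General

variable {m : ℕ} {ι κ : Type*} [Fintype ι] [DecidableEq ι] [Fintype κ]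

/-- The main inequality for orthonormal families in `H¹`. -/
theorem main_H1 {ψ ψ' : ι → ℝ → EuclideanSpace ℂ (Fin m)}
    (hψ : ∀ j, MemLp (ψ j) 2 volume) (hψ' : ∀ j, MemLp (ψ' j) 2 volume)
    (hftc : ∀ j, ∀ a b : ℝ, ∫ t in a..b, ψ' j t = ψ j b - ψ j a)
    (orth : ∀ i j, ∫ x, ⟪ψ i x, ψ j x⟫_ℂ = if i = j then (1 : ℂ) else 0)
    {W : ℝ → Matrix (Fin m) (Fin m) ℂ} (hWm : ∀ a b, Measurable fun x => W x a b)
    (hW : ∀ x, (W x).PosSemidef)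
    (htr : Integrable fun x => ∑ a, ((hW x).isHermitian.eigenvalues a) ^ (3 / 2 : ℝ))
    (a c : κ → ℝ) (hc : ∀ i, 0 < c i) (ha : ∑ i, a i = 1) (hα : 0 ≤ alphaMix a c)
    (hG : 0 < GMix a c) :
    (∀ j, Integrable fun x => (star (ψ j x).ofLp ⬝ᵥ (W x *ᵥ (ψ j x).ofLp)).re) ∧
    ∑ j, ∫ x, (star (ψ j x).ofLp ⬝ᵥ (W x *ᵥ (ψ j x).ofLp)).re ≤
      (∑ j, ∫ x, ‖ψ' j x‖ ^ 2) +
        (3 / 2 * √(3 / 2) * alphaMix a c * √(GMix a c)) *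
          ∫ x, ∑ a, ((hW x).isHermitian.eigenvalues a) ^ (3 / 2 : ℝ) := by
  set Φ : ι → Lp (EuclideanSpace ℂ (Fin m)) 2 (volume : Measure ℝ) :=
    fun j => 𝓕 ((hψ j).toLp (ψ j)) with hΦ
  set φ : ι → ℝ → EuclideanSpace ℂ (Fin m) := fun j => (Φ j : ℝ → EuclideanSpace ℂ (Fin m)) with hφ
  have hfacts := fun j => fourier_facts (hψ j) (hψ' j) (hftc j)
  have horth : ∀ i j, ∫ ξ, ⟪φ i ξ, φ j ξ⟫_ℂ = if i = j then (1 : ℂ) else 0 := by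
    intro i j
    rw [← orth i j, integral_inner_toLp (hψ i) (hψ j), ← Lp.inner_fourier_eq, L2.inner_def]
  have hmain := main_fourier (φ := φ) (fun j => Lp.stronglyMeasurable (Φ j))
    (fun j => (hfacts j).2.2.1) (fun j => Lp.memLp (Φ j)) horth (fun j => (hfacts j).1)
    hWm hW htr measurable_heatF heatF_bound heat_energy hα hG (scaleData_mix a c hc ha)
  have hae : ∀ j, (fun x => (star (𝓕⁻ (φ j) x).ofLp ⬝ᵥ (W x *ᵥ (𝓕⁻ (φ j) x).ofLp)).re) =ᵐ[volume]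
      fun x => (star (ψ j x).ofLp ⬝ᵥ (W x *ᵥ (ψ j x).ofLp)).re := by
    intro j
    filter_upwards [(hfacts j).2.2.2] with x hx
    simp only [hφ, hΦ]
    rw [hx]
  refine ⟨fun j => (integrable_congr (hae j)).mp (hmain.1 j), ?_⟩
  have e1 : ∑ j, ∫ x, (star (ψ j x).ofLp ⬝ᵥ (W x *ᵥ (ψ j x).ofLp)).re =
      ∑ j, ∫ x, (star (𝓕⁻ (φ j) x).ofLp ⬝ᵥ (W x *ᵥ (𝓕⁻ (φ j) x).ofLp)).re :=
    Finset.sum_congr rfl fun j _ => (integral_congr_ae (hae j)).symm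
  have e2 : ∑ j, ∫ x, ‖ψ' j x‖ ^ 2 = ∑ j, ∫ ξ, (2 * Real.pi * ξ) ^ 2 * ‖φ j ξ‖ ^ 2 :=
    Finset.sum_congr rfl fun j _ => ((hfacts j).2.1).symm
  rw [e1, e2]
  exact hmain.2

end Vale.Agent.Lib.P371
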