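import Mathlib

open MeasureTheory FourierTransform SchwartzMap Set Filter
open scoped ENNReal ContDiff Topology

noncomputable section

namespace Vale.Agent.Lib.P371

variable {E : Type*} [NormedAddCommGroup E] [NormedSpace ℝ E] [CompleteSpace E]
  [NormedSpace ℂ E] [SMulCommClass ℝ ℂ E]

lemma memLp_inv_sqrt : MemLp (fun t : ℝ => (Real.sqrt (1 + t ^ 2))⁻¹) 2 volume := by
  have hm : AEStronglyMeasurable (fun t : ℝ => (Real.sqrt (1 + t ^ 2))⁻¹) volume := by
    apply Continuous.aestronglyMeasurable
    apply Continuous.inv₀ (by fun_prop)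
    intro x
    have : (0:ℝ) < 1 + x ^ 2 := by positivity
    exact (Real.sqrt_pos.mpr this).ne'
  rw [memLp_two_iff_integrable_sq_norm hm]
  refine integrable_inv_one_add_sq.congr (Eventually.of_forall fun t => ?_)
  have : (0:ℝ) ≤ 1 + t ^ 2 := by positivity
  simp only [norm_inv, Real.norm_eq_abs, abs_of_nonneg (Real.sqrt_nonneg _), inv_pow,
    Real.sq_sqrt this]

lemma integrable_norm_mul_inv_sqrt {f : ℝ → E} (hf : MemLp f 2 volume) :
    Integrable (fun t => ‖f t‖ * (Real.sqrt (1 + t ^ 2))⁻¹) volume := by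
  have h := (hf.norm).integrable_mul memLp_inv_sqrt
  exact h

/-- Integration by parts on the half-line, by Fubini. -/
lemma parts_half {ψ ψ' : ℝ → E} (hψ' : MemLp ψ' 2 volume)
    (hftc : ∀ a b : ℝ, ∫ t in a..b, ψ' t = ψ b - ψ a)
    {h k : ℝ → ℂ} (hder : ∀ x, HasDerivAt h (k x) x) (hkc : Continuous k)
    (htop : Tendsto h atTop (𝓝 0))
    (hint : Integrable (fun x => Real.sqrt (1 + x ^ 2) * ‖k x‖) volume) :
    ∫ x in Ioi (0:ℝ), k x • (ψ x - ψ 0) = - ∫ t in Ioi (0:ℝ), h t • ψ' t := by
  classical
  let S : Set (ℝ × ℝ) := {p | 0 < p.2 ∧ p.2 < p.1}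
  have hS : MeasurableSet S := by
    have h1 : MeasurableSet {p : ℝ × ℝ | 0 < p.2} := measurableSet_lt measurable_const measurable_snd
    have h2 : MeasurableSet {p : ℝ × ℝ | p.2 < p.1} := measurableSet_lt measurable_snd measurable_fst
    exact h1.inter h2
  let F : ℝ → ℝ → E := fun x t => S.indicator (fun p : ℝ × ℝ => k p.1 • ψ' p.2) (x, t)
  have hFint : Integrable (Function.uncurry F) (volume.prod volume) := by
    have hdom : Integrable (fun p : ℝ × ℝ =>
        (Real.sqrt (1 + p.1 ^ 2) * ‖k p.1‖) * (‖ψ' p.2‖ * (Real.sqrt (1 + p.2 ^ 2))⁻¹))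
        (volume.prod volume) :=
      Integrable.mul_prod hint (integrable_norm_mul_inv_sqrt hψ')
    refine hdom.mono' ?_ (Eventually.of_forall fun p => ?_)
    · have h1 : AEStronglyMeasurable (fun p : ℝ × ℝ => k p.1 • ψ' p.2) (volume.prod volume) :=
        (hkc.comp continuous_fst).aestronglyMeasurable.smul hψ'.1.comp_snd
      exact h1.indicator hS
    · rcases p with ⟨x, t⟩
      simp only [Function.uncurry, F, Set.indicator]
      split_ifs with hp
      · obtain ⟨h0, hlt⟩ := hp
        simp only at h0 hlt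
        have hs1 : 0 < Real.sqrt (1 + t ^ 2) := Real.sqrt_pos.mpr (by positivity)
        have hs2 : Real.sqrt (1 + t ^ 2) ≤ Real.sqrt (1 + x ^ 2) := by
          apply Real.sqrt_le_sqrt
          nlinarith
        have hs3 : 0 < Real.sqrt (1 + x ^ 2) := lt_of_lt_of_le hs1 hs2
        rw [norm_smul]
        have e : ‖k x‖ * ‖ψ' t‖ = Real.sqrt (1 + x ^ 2) * ‖k x‖ * (‖ψ' t‖ * (Real.sqrt (1 + x ^ 2))⁻¹) := by
          field_simp
        rw [e]
        gcongr
      · simp only [norm_zero]
        positivity
  have hswap := integral_integral_swap hFint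
  have hleft : ∀ x, ∫ t, F x t = if 0 < x then k x • (ψ x - ψ 0) else 0 := by
    intro x
    split_ifs with hx
    · have e : ∀ t, F x t = (Ioo 0 x).indicator (fun t => k x • ψ' t) t := by
        intro t
        simp only [F, Set.indicator, S, Set.mem_ofPred_eq, Set.mem_Ioo]
      simp_rw [e]
      rw [integral_indicator measurableSet_Ioo, integral_smul, ← integral_Ioc_eq_integral_Ioo,
        ← intervalIntegral.integral_of_le hx.le, hftc]
    · have e : ∀ t, F x t = 0 := by
        intro t
        simp only [F, Set.indicator, S, Set.mem_ofPred_eq]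
        rw [if_neg]
        rintro ⟨h0, hlt⟩
        exact hx (lt_trans h0 hlt)
      simp_rw [e]
      simp
  have hkint : ∀ a : ℝ, IntegrableOn k (Ioi a) volume := by
    intro a
    have : Integrable k volume := by
      refine hint.mono' hkc.aestronglyMeasurable (Eventually.of_forall fun x => ?_)
      have : 1 ≤ Real.sqrt (1 + x ^ 2) := by
        rw [Real.one_le_sqrt]
        nlinarith [sq_nonneg x]
      have h0 := norm_nonneg (k x)
      simpa using le_mul_of_one_le_left h0 this
    exact this.integrableOn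
  have hright : ∀ t, ∫ x, F x t = if 0 < t then (- h t) • ψ' t else 0 := by
    intro t
    split_ifs with ht
    · have e : ∀ x, F x t = (Ioi t).indicator (fun x => k x • ψ' t) x := by
        intro x
        simp only [F, Set.indicator, S, Set.mem_ofPred_eq, Set.mem_Ioi, ht, true_and]
      simp_rw [e]
      rw [integral_indicator measurableSet_Ioi, integral_smul_const,
        integral_Ioi_of_hasDerivAt_of_tendsto' (fun x _ => hder x) (hkint t) htop, zero_sub]
    · have e : ∀ x, F x t = 0 := by
        intro x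
        simp only [F, Set.indicator, S, Set.mem_ofPred_eq]
        rw [if_neg]
        rintro ⟨h0, -⟩
        exact ht h0
      simp_rw [e]
      simp
  simp_rw [hleft, hright] at hswap
  have h1 : ∫ x, (if 0 < x then k x • (ψ x - ψ 0) else 0) = ∫ x in Ioi (0:ℝ), k x • (ψ x - ψ 0) := by
    rw [← integral_indicator measurableSet_Ioi]
    rfl
  have h2 : ∫ t, (if 0 < t then (- h t) • ψ' t else 0) = - ∫ t in Ioi (0:ℝ), h t • ψ' t := by
    rw [← integral_neg, ← integral_indicator measurableSet_Ioi]
    simp only [Set.indicator, Set.mem_Ioi, neg_smul]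
  rw [h1, h2] at hswap
  exact hswap

/-- Integration by parts on the line against a Schwartz function. -/
lemma parts_line {ψ ψ' : ℝ → E} (hψ : MemLp ψ 2 volume) (hψ' : MemLp ψ' 2 volume)
    (hftc : ∀ a b : ℝ, ∫ t in a..b, ψ' t = ψ b - ψ a) (h : 𝓢(ℝ, ℂ)) :
    ∫ x, deriv h x • ψ x = - ∫ t, h t • ψ' t := by
  set k : ℝ → ℂ := deriv h with hk
  have hkc : Continuous k := (derivCLM ℝ ℂ h).continuous
  have hkS : ∀ x, k x = (derivCLM ℝ ℂ h) x := fun x => rfl
  have hint : Integrable (fun x => Real.sqrt (1 + x ^ 2) * ‖k x‖) volume := by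
    have h1 := (derivCLM ℝ ℂ h).integrable_pow_mul volume 1
    have h2 := (derivCLM ℝ ℂ h).integrable_pow_mul volume 0
    refine (h2.add h1).mono' ?_ (Eventually.of_forall fun x => ?_)
    · exact ((by fun_prop : Continuous fun x : ℝ => Real.sqrt (1 + x ^ 2)).mul
        (continuous_norm.comp hkc)).aestronglyMeasurable
    · have hs : Real.sqrt (1 + x ^ 2) ≤ 1 + |x| := by
        rw [Real.sqrt_le_left (by positivity)]
        nlinarith [abs_nonneg x, sq_abs x]
      simp only [norm_mul, abs_norm, Real.norm_eq_abs, pow_one, pow_zero, one_mul, Pi.add_apply, hkS]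
      rw [abs_of_nonneg (Real.sqrt_nonneg _)]
      have h0 := norm_nonneg ((derivCLM ℝ ℂ h) x)
      nlinarith
  have hpos := parts_half hψ' hftc (h := h) (k := k) h.hasDerivAt hkc
    (h.tendsto_cocompact.mono_left atTop_le_cocompact) hint
  -- reflection
  have hψ'r : MemLp (fun x => - ψ' (-x)) 2 volume := by
    exact (hψ'.comp_measurePreserving (Measure.measurePreserving_neg volume)).neg
  have hftcr : ∀ a b : ℝ, ∫ t in a..b, - ψ' (-t) = ψ (-b) - ψ (-a) := by
    intro a b
    rw [intervalIntegral.integral_neg, intervalIntegral.integral_comp_neg, hftc]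
    abel
  have hderr : ∀ x, HasDerivAt (fun x => h (-x)) (- k (-x)) x := by
    intro x
    have := (h.hasDerivAt (-x)).scomp x (hasDerivAt_neg x)
    have e : (-1:ℝ) • deriv h (-x) = - k (-x) := by simp [hk]
    rw [e] at this
    exact this
  have hintr : Integrable (fun x => Real.sqrt (1 + x ^ 2) * ‖- k (-x)‖) volume := by
    have := hint.comp_neg
    simpa using this
  have hneg := parts_half hψ'r hftcr (h := fun x => h (-x)) (k := fun x => - k (-x)) hderr
    (hkc.comp continuous_neg).neg
    ((h.tendsto_cocompact.mono_left atBot_le_cocompact).comp tendsto_neg_atTop_atBot) hintr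
  have hneg' : ∫ x in Iic (0:ℝ), k x • (ψ x - ψ 0) = - ∫ t in Iic (0:ℝ), h t • ψ' t := by
    have e1 := integral_comp_neg_Ioi (0:ℝ) (fun x => - k x • (ψ x - ψ 0))
    have e2 := integral_comp_neg_Ioi (0:ℝ) (fun t => h t • (- ψ' t))
    simp only [neg_zero] at e1 e2
    have e3 : ∫ x in Ioi (0:ℝ), (- k (-x)) • (ψ (-x) - ψ (-0)) = ∫ x in Iic (0:ℝ), - k x • (ψ x - ψ 0) := by
      simpa using e1
    have e4 : ∫ t in Ioi (0:ℝ), h (-t) • (- ψ' (-t)) = ∫ t in Iic (0:ℝ), h t • (- ψ' t) := by
      simpa using e2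
    simp only [neg_zero] at hneg e3
    rw [e3, e4] at hneg
    simp only [neg_smul, smul_neg, integral_neg] at hneg
    have e5 : - ∫ x in Iic (0:ℝ), k x • (ψ x - ψ 0) = ∫ t in Iic (0:ℝ), h t • ψ' t := by
      simpa using hneg
    rw [← e5, neg_neg]
  have hk_int : Integrable k volume := (derivCLM ℝ ℂ h).integrable
  have hkψ : Integrable (fun x => k x • ψ x) volume := by
    have hk2 : MemLp k 2 volume := (derivCLM ℝ ℂ h).memLp 2 volume
    have := hψ.smul (r := 1) hk2
    exact memLp_one_iff_integrable.mp this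
  have hkψ0 : Integrable (fun x => k x • ψ 0) volume := hk_int.smul_const _
  have hksub : Integrable (fun x => k x • (ψ x - ψ 0)) volume := by
    simp_rw [smul_sub]
    exact hkψ.sub hkψ0
  have hhψ' : Integrable (fun x => h x • ψ' x) volume := by
    have := hψ'.smul (r := 1) (h.memLp 2 volume)
    exact memLp_one_iff_integrable.mp this
  have hzero : ∫ x, k x = 0 := by
    have := integral_of_hasDerivAt_of_tendsto h.hasDerivAt hk_int
      (h.tendsto_cocompact.mono_left atBot_le_cocompact)
      (h.tendsto_cocompact.mono_left atTop_le_cocompact)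
    simpa using this
  have s1 := intervalIntegral.integral_Iic_add_Ioi (f := fun x => k x • (ψ x - ψ 0)) (b := 0)
    hksub.integrableOn hksub.integrableOn
  have s2 := intervalIntegral.integral_Iic_add_Ioi (f := fun x => h x • ψ' x) (b := 0)
    hhψ'.integrableOn hhψ'.integrableOn
  have s3 : ∫ x, k x • ψ x = ∫ x, k x • (ψ x - ψ 0) := by
    have e : ∀ x, k x • ψ x = k x • (ψ x - ψ 0) + k x • ψ 0 := by
      intro x
      rw [smul_sub]
      abel
    simp_rw [e]
    rw [integral_add hksub hkψ0, integral_smul_const, hzero]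
    simp
  rw [s3, ← s1, ← s2, hpos, hneg']
  abel

end Vale.Agent.Lib.P371
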