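import Vale.Agent.Lib.P371.FourierBasic
import Vale.Agent.Lib.P371.Parts

open MeasureTheory FourierTransform SchwartzMap Set Filter
open scoped ENNReal ContDiff Topology

noncomputable section

namespace Vale.Agent.Lib.P371

variable {E : Type*} [NormedAddCommGroup E] [InnerProductSpace ℂ E] [CompleteSpace E]
  [MeasurableSpace E] [BorelSpace E]

/-- Pairing of the `L²` Fourier transform with a Schwartz function. -/
lemma pair_fourier {f : ℝ → E} (hf : MemLp f 2 volume) (H : 𝓢(ℝ, ℂ)) :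
    ∫ x, (𝓕 H) x • f x =
      ∫ ξ, H ξ • ((𝓕 (hf.toLp f) : Lp E 2 (volume : Measure ℝ)) : ℝ → E) ξ := by
  rw [← Lp.toTemperedDistribution_apply, ← Lp.fourier_toTemperedDistribution_eq,
    TemperedDistribution.fourier_apply, Lp.toTemperedDistribution_apply]
  apply integral_congr_ae
  filter_upwards [hf.coeFn_toLp] with ξ hξ
  rw [hξ]

/-- For `ψ ∈ H¹`, the `L²` Fourier transform of the derivative is `2π i ξ` times that of `ψ`. -/
lemma fourier_deriv_ae {ψ ψ' : ℝ → E} (hψ : MemLp ψ 2 volume) (hψ' : MemLp ψ' 2 volume)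
    (hftc : ∀ a b : ℝ, ∫ t in a..b, ψ' t = ψ b - ψ a) :
    ((𝓕 (hψ'.toLp ψ') : Lp E 2 (volume : Measure ℝ)) : ℝ → E) =ᵐ[volume]
      fun ξ => ((2 * Real.pi * Complex.I * ξ : ℂ)) •
        ((𝓕 (hψ.toLp ψ) : Lp E 2 (volume : Measure ℝ)) : ℝ → E) ξ := by
  set Φ' : Lp E 2 (volume : Measure ℝ) := 𝓕 (hψ'.toLp ψ') with hΦ'
  set Φ : Lp E 2 (volume : Measure ℝ) := 𝓕 (hψ.toLp ψ) with hΦ
  apply ae_eq_of_integral_contDiff_smul_eq
  · exact (Lp.memLp _).locallyIntegrable (by norm_num)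
  · have h1 : LocallyIntegrable (Φ : ℝ → E) volume := (Lp.memLp _).locallyIntegrable (by norm_num)
    rw [locallyIntegrable_iff] at h1 ⊢
    intro K hK
    have hc : Continuous fun ξ : ℝ => (2 * Real.pi * Complex.I * ξ : ℂ) := by fun_prop
    exact (h1 K hK).continuousOn_smul hc.continuousOn hK
  · intro g g_smooth g_cpt
    have hg₁ : HasCompactSupport (Complex.ofRealCLM ∘ g) := g_cpt.comp_left rfl
    have hg₂ : ContDiff ℝ ∞ (Complex.ofRealCLM ∘ g) := by fun_prop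
    set G : 𝓢(ℝ, ℂ) := hg₁.toSchwartzMap hg₂ with hG
    have hGx : ∀ x, G x = (g x : ℂ) := fun x => rfl
    let m : ℝ → ℂ := fun ξ => (-2 * Real.pi * Complex.I * ξ) • (g ξ : ℂ)
    have hm₁ : HasCompactSupport m := by
      have : m = (fun ξ : ℝ => (-2 * Real.pi * Complex.I * ξ : ℂ)) • (Complex.ofRealCLM ∘ g) := rfl
      rw [this]
      exact hg₁.smul_left
    have hm₂ : ContDiff ℝ ∞ m := by
      have hc1 : ContDiff ℝ ∞ (fun ξ : ℝ => (-2 * Real.pi * Complex.I * ξ : ℂ)) := by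
        exact contDiff_const.mul Complex.ofRealCLM.contDiff
      exact hc1.smul hg₂
    set M : 𝓢(ℝ, ℂ) := hm₁.toSchwartzMap hm₂ with hM
    have hMx : ∀ x, M x = (-2 * Real.pi * Complex.I * x : ℂ) • G x := fun x => rfl
    have hI : Integrable (fun x : ℝ => x • G x) volume := by
      refine Integrable.mono' (G.integrable_pow_mul volume 1) ?_ (Eventually.of_forall fun x => ?_)
      · exact (continuous_id.smul G.continuous).aestronglyMeasurable
      · simp [norm_smul]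
    have hd : deriv (((𝓕 G : 𝓢(ℝ, ℂ))) : ℝ → ℂ) = ((𝓕 M : 𝓢(ℝ, ℂ)) : ℝ → ℂ) := by
      rw [fourier_coe, fourier_coe, Real.deriv_fourier G.integrable hI]
      congr 1
    have e1 : ∫ x, g x • (Φ' : ℝ → E) x = ∫ x, G x • (Φ' : ℝ → E) x := by
      simp only [hGx, Complex.coe_smul]
    have e2 : ∫ x, G x • (Φ' : ℝ → E) x = ∫ x, (𝓕 G : 𝓢(ℝ, ℂ)) x • ψ' x :=
      (pair_fourier hψ' G).symm
    have e3 : ∫ x, (𝓕 G : 𝓢(ℝ, ℂ)) x • ψ' x = - ∫ x, deriv ((𝓕 G : 𝓢(ℝ, ℂ)) : ℝ → ℂ) x • ψ x := by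
      rw [parts_line hψ hψ' hftc (𝓕 G), neg_neg]
    have e4 : ∫ x, deriv ((𝓕 G : 𝓢(ℝ, ℂ)) : ℝ → ℂ) x • ψ x = ∫ x, M x • (Φ : ℝ → E) x := by
      rw [hd]
      exact pair_fourier hψ M
    have e5 : ∫ x, g x • ((2 * Real.pi * Complex.I * x : ℂ) • (Φ : ℝ → E) x)
        = - ∫ x, M x • (Φ : ℝ → E) x := by
      rw [← integral_neg]
      congr 1
      ext x
      rw [hMx, hGx, smul_eq_mul, ← Complex.coe_smul, smul_smul, ← neg_smul]
      congr 1
      ring
    rw [e1, e2, e3, e4, e5]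

end Vale.Agent.Lib.P371
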