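import Vale.Agent.Lib.P371.Assemble

open scoped BigOperators

noncomputable section

namespace Vale.Agent.Lib.P371

/-- The weights of the explicit mixture. -/
def a4 : Fin 4 → ℝ := ![172 / 1000, 1191 / 1000, -108 / 100, 717 / 1000]

/-- The exponents of the explicit mixture. -/
def c4 : Fin 4 → ℝ := ![1, 3, 10, 12]

lemma c4_pos (i : Fin 4) : 0 < c4 i := by
  fin_cases i <;> simp [c4]

lemma a4_sum : ∑ i, a4 i = 1 := by
  simp only [Fin.sum_univ_four, a4, Matrix.cons_val]
  norm_num

lemma alpha4 : alphaMix a4 c4 = 1388473033 / 2860000000 := by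
  simp only [alphaMix, Fin.sum_univ_four, a4, c4, Matrix.cons_val]
  norm_num

lemma G4 : GMix a4 c4 = 6431863865157901 / 52971785120000000 := by
  simp only [GMix, Fin.sum_univ_four, a4, c4, Matrix.cons_val]
  norm_num

lemma const4 : 3 / 2 * √(3 / 2) * alphaMix a4 c4 * √(GMix a4 c4) ≤ 311 / 1000 := by
  rw [alpha4, G4]
  have h1 : √(3 / 2 : ℝ) * √(6431863865157901 / 52971785120000000 : ℝ) ≤ 427 / 1000 := by
    rw [← Real.sqrt_mul (by norm_num)]
    rw [Real.sqrt_le_left (by norm_num)]
    norm_num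
  have h2 : (0:ℝ) ≤ 3 / 2 * (1388473033 / 2860000000) := by norm_num
  calc 3 / 2 * √(3 / 2) * (1388473033 / 2860000000) * √(6431863865157901 / 52971785120000000)
      = (3 / 2 * (1388473033 / 2860000000)) * (√(3 / 2 : ℝ) * √(6431863865157901 / 52971785120000000 : ℝ)) := by
        ring
    _ ≤ (3 / 2 * (1388473033 / 2860000000)) * (427 / 1000) :=
        mul_le_mul_of_nonneg_left h1 h2
    _ ≤ 311 / 1000 := by norm_num

end Vale.Agent.Lib.P371
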