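import Vale.Agent.Lib.P371.Bridge

open MeasureTheory FourierTransform SchwartzMap Set Filter
open scoped ENNReal Topology

noncomputable section

namespace Vale.Agent.Lib.P371

section Basic

variable {α : Type*} [MeasurableSpace α] {μ : Measure α}
variable {F : Type*} [NormedAddCommGroup F]

/-- `∫⁻ ‖f‖² = (eLpNorm f 2)²`. -/
lemma lintegral_enorm_sq (f : α → F) (μ : Measure α) :
    ∫⁻ x, ‖f x‖ₑ ^ 2 ∂μ = (eLpNorm f 2 μ) ^ 2 := by
  have h := eLpNorm_eq_lintegral_rpow_enorm_toReal (μ := μ) (f := f) (p := 2) (by norm_num) (by norm_num)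
  simp only [ENNReal.toReal_ofNat, ENNReal.rpow_two] at h
  rw [h, ← ENNReal.rpow_natCast, ← ENNReal.rpow_mul]
  norm_num

/-- Cauchy-Schwarz for two `L²` functions. -/
lemma integral_norm_mul_norm_le {G : Type*} [NormedAddCommGroup G] {f : α → F} {g : α → G}
    (hf : MemLp f 2 μ) (hg : MemLp g 2 μ) :
    ∫ a, ‖f a‖ * ‖g a‖ ∂μ ≤ √(∫ a, ‖f a‖ ^ 2 ∂μ) * √(∫ a, ‖g a‖ ^ 2 ∂μ) := by
  have hp : (2:ℝ).HolderConjugate 2 := Real.HolderConjugate.two_two
  have h := integral_mul_norm_le_Lp_mul_Lq (μ := μ) (f := fun a => ‖f a‖) (g := fun a => ‖g a‖)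
    (p := 2) (q := 2) hp (by simpa using hf.norm) (by simpa using hg.norm)
  simp only [norm_norm, Real.rpow_two] at h
  rw [Real.sqrt_eq_rpow, Real.sqrt_eq_rpow]
  exact h

end Basic

variable {E : Type*} [NormedAddCommGroup E] [InnerProductSpace ℂ E] [CompleteSpace E]
  [MeasurableSpace E] [BorelSpace E]

/-- Plancherel for the inverse Fourier integral of an `L¹ ∩ L²` function. -/
lemma plancherel_inv {a : ℝ → E} (h1 : Integrable a) (h2 : MemLp a 2 volume) :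
    ∫⁻ x, ‖𝓕⁻ a x‖ₑ ^ 2 = ∫⁻ ξ, ‖a ξ‖ₑ ^ 2 := by
  set F : Lp E 2 (volume : Measure ℝ) := 𝓕⁻ (h2.toLp a) with hF
  have hae := coe_fourierInv_toLp_ae h1 h2
  have e1 : ∫⁻ x, ‖𝓕⁻ a x‖ₑ ^ 2 = ∫⁻ x, ‖(F : ℝ → E) x‖ₑ ^ 2 := by
    apply lintegral_congr_ae
    filter_upwards [hae] with x hx
    rw [hF, hx]
  have hn : ‖F‖ = ‖h2.toLp a‖ := (Lp.fourierTransformₗᵢ ℝ E).symm.norm_map _
  rw [Lp.norm_def, Lp.norm_toLp] at hn
  have hfin1 : eLpNorm (F : ℝ → E) 2 volume ≠ ∞ := (Lp.memLp F).2.ne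
  have hfin2 : eLpNorm a 2 volume ≠ ∞ := h2.2.ne
  have hn' : eLpNorm (F : ℝ → E) 2 volume = eLpNorm a 2 volume :=
    (ENNReal.toReal_eq_toReal_iff' hfin1 hfin2).mp hn
  rw [e1, lintegral_enorm_sq, lintegral_enorm_sq, hn']

variable {Ω : Type*} [MeasurableSpace Ω] {ν : Measure Ω} [SFinite ν]

/-- The inverse Fourier integral of `f ω · a`. -/
def Bf (f : Ω → ℝ → ℝ) (a : ℝ → E) (ω : Ω) (x : ℝ) : E :=
  𝓕⁻ (fun ξ => (f ω ξ : ℂ) • a ξ) x

lemma continuous_char : Continuous fun p : ℝ × ℝ => ((Real.fourierChar (inner ℝ p.1 p.2) : Circle) : ℂ) := by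
  have h1 : Continuous fun p : ℝ × ℝ => (inner ℝ p.1 p.2 : ℝ) := continuous_inner
  exact continuous_subtype_val.comp (Real.continuous_fourierChar.comp h1)

lemma Bf_apply (f : Ω → ℝ → ℝ) (a : ℝ → E) (ω : Ω) (x : ℝ) :
    Bf f a ω x = ∫ ξ, ((Real.fourierChar (inner ℝ ξ x) : Circle) : ℂ) • ((f ω ξ : ℂ) • a ξ) := by
  rw [Bf, Real.fourierInv_eq]
  rfl

lemma stronglyMeasurable_Bf {f : Ω → ℝ → ℝ} (hf : Measurable (Function.uncurry f)) {a : ℝ → E}
    (ha : StronglyMeasurable a) : StronglyMeasurable (Function.uncurry (Bf f a)) := by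
  have : Function.uncurry (Bf f a) = fun p : Ω × ℝ =>
      ∫ ξ, ((Real.fourierChar (inner ℝ ξ p.2) : Circle) : ℂ) • ((f p.1 ξ : ℂ) • a ξ) := by
    ext ⟨ω, x⟩
    exact Bf_apply f a ω x
  rw [this]
  apply StronglyMeasurable.integral_prod_right'
    (f := fun q : (Ω × ℝ) × ℝ =>
      ((Real.fourierChar (inner ℝ q.2 q.1.2) : Circle) : ℂ) • ((f q.1.1 q.2 : ℂ) • a q.2))
  apply StronglyMeasurable.smul
  · exact (continuous_char.measurable.comp
      (measurable_snd.prodMk measurable_fst.snd)).stronglyMeasurable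
  · apply StronglyMeasurable.smul
    · have : Measurable fun q : (Ω × ℝ) × ℝ => (f q.1.1 q.2 : ℂ) := by
        apply Complex.measurable_ofReal.comp
        exact hf.comp (measurable_fst.fst.prodMk measurable_snd)
      exact this.stronglyMeasurable
    · exact ha.comp_measurable measurable_snd

/-- Tonelli and Plancherel: the energy of the family `Bf`. -/
lemma energy_Bf {f : Ω → ℝ → ℝ} (hf : Measurable (Function.uncurry f)) {a : ℝ → E}
    (ha : StronglyMeasurable a) (h1 : Integrable a) (h2 : MemLp a 2 volume)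
    (hbdd : ∀ᵐ ω ∂ν, ∃ C, ∀ ξ, |f ω ξ| ≤ C) :
    ∫⁻ x, ∫⁻ ω, ‖Bf f a ω x‖ₑ ^ 2 ∂ν = ∫⁻ ξ, (∫⁻ ω, ‖f ω ξ‖ₑ ^ 2 ∂ν) * ‖a ξ‖ₑ ^ 2 := by
  have hm : Measurable (Function.uncurry fun x ω => ‖Bf f a ω x‖ₑ ^ 2) := by
    have h0 : Measurable fun p : Ω × ℝ => ‖Function.uncurry (Bf f a) p‖ₑ ^ 2 :=
      (stronglyMeasurable_Bf hf ha).measurable.enorm.pow_const 2
    have e : (Function.uncurry fun (x : ℝ) (ω : Ω) => ‖Bf f a ω x‖ₑ ^ 2)
        = (fun p : Ω × ℝ => ‖Function.uncurry (Bf f a) p‖ₑ ^ 2) ∘ Prod.swap := by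
      ext ⟨x, ω⟩
      simp [Function.uncurry]
    rw [e]
    exact h0.comp measurable_swap
  rw [lintegral_lintegral_swap hm.aemeasurable]
  have e : ∀ᵐ ω ∂ν, ∫⁻ x, ‖Bf f a ω x‖ₑ ^ 2 = ∫⁻ ξ, ‖f ω ξ‖ₑ ^ 2 * ‖a ξ‖ₑ ^ 2 := by
    filter_upwards [hbdd] with ω ⟨C, hC⟩
    have hfm : Measurable fun ξ => f ω ξ := hf.comp (measurable_const.prodMk measurable_id)
    have hb : ∀ ξ, ‖((f ω ξ : ℂ)) • a ξ‖ ≤ C * ‖a ξ‖ := by
      intro ξ
      rw [norm_smul, Complex.norm_real]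
      exact mul_le_mul_of_nonneg_right (hC ξ) (norm_nonneg _)
    have hm2 : AEStronglyMeasurable (fun ξ => ((f ω ξ : ℂ)) • a ξ) volume := by
      exact ((Complex.measurable_ofReal.comp hfm).stronglyMeasurable.smul ha).aestronglyMeasurable
    have h1' : Integrable (fun ξ => ((f ω ξ : ℂ)) • a ξ) volume :=
      (h1.norm.const_mul C).mono' hm2 (Eventually.of_forall hb)
    have h2' : MemLp (fun ξ => ((f ω ξ : ℂ)) • a ξ) 2 volume :=
      MemLp.of_le_mul h2 hm2 (Eventually.of_forall hb)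
    have := plancherel_inv h1' h2'
    simp only [Bf]
    rw [this]
    apply lintegral_congr
    intro ξ
    rw [enorm_smul, mul_pow]
    congr 2
    simp [enorm_eq_nnnorm, Complex.nnnorm_real]
  rw [lintegral_congr_ae e, lintegral_lintegral_swap]
  · apply lintegral_congr
    intro ξ
    rw [lintegral_mul_const']
    exact (ENNReal.pow_ne_top enorm_ne_top)
  · apply Measurable.aemeasurable
    have e2 : (Function.uncurry fun (ω : Ω) (ξ : ℝ) => ‖f ω ξ‖ₑ ^ 2 * ‖a ξ‖ₑ ^ 2)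
        = fun p : Ω × ℝ => ‖Function.uncurry f p‖ₑ ^ 2 * ‖a p.2‖ₑ ^ 2 := by
      ext ⟨ω, ξ⟩
      rfl
    rw [e2]
    exact (hf.enorm.pow_const 2).mul ((ha.measurable.enorm.pow_const 2).comp measurable_snd)

end Vale.Agent.Lib.P371
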