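import Mathlib

open MeasureTheory FourierTransform SchwartzMap
open scoped ENNReal ContDiff

noncomputable section

namespace Vale.Agent.Lib.P371

variable {E : Type*} [NormedAddCommGroup E] [InnerProductSpace ℂ E] [CompleteSpace E]
  [MeasurableSpace E] [BorelSpace E]

lemma continuous_negInner : Continuous fun p : ℝ × ℝ => (-innerₗ ℝ) p.1 p.2 := by
  have : (fun p : ℝ × ℝ => (-innerₗ ℝ) p.1 p.2) = fun p => -(inner ℝ p.1 p.2) := rfl
  rw [this]
  exact continuous_inner.neg

lemma fourierIntegral_flip_eq (a : ℝ → E) (x : ℝ) :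
    VectorFourier.fourierIntegral Real.fourierChar volume (-innerₗ ℝ).flip a x = 𝓕⁻ a x := by
  rw [Real.fourierInv_eq, VectorFourier.fourierIntegral]
  congr 1
  ext v
  congr 2
  change - (- inner ℝ x v) = inner ℝ v x
  rw [neg_neg, real_inner_comm]

/-- Self-adjointness of the inverse Fourier integral against Schwartz functions. -/
lemma integral_fourierInv_smul_swap (G : 𝓢(ℝ, ℂ)) {a : ℝ → E} (ha : Integrable a) :
    ∫ ξ, (𝓕⁻ G) ξ • a ξ = ∫ x, G x • (𝓕⁻ a) x := by
  have h := VectorFourier.integral_fourierIntegral_smul_eq_flip (L := -innerₗ ℝ)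
    (e := Real.fourierChar) (μ := volume) (ν := volume)
    Real.continuous_fourierChar continuous_negInner G.integrable ha
  simp only [fourierIntegral_flip_eq] at h
  rw [fourierInv_coe]
  exact h

/-- The `L²` inverse Fourier transform of an `L¹ ∩ L²` function is given by the integral. -/
lemma coe_fourierInv_toLp_ae {a : ℝ → E} (h1 : Integrable a) (h2 : MemLp a 2) :
    ((𝓕⁻ (h2.toLp a) : Lp E 2 (volume : Measure ℝ)) : ℝ → E) =ᵐ[volume] 𝓕⁻ a := by
  have hc : Continuous (𝓕⁻ a) :=
    VectorFourier.fourierIntegral_continuous Real.continuous_fourierChar continuous_negInner h1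
  apply ae_eq_of_integral_contDiff_smul_eq
  · exact (Lp.memLp _).locallyIntegrable (by norm_num)
  · exact hc.locallyIntegrable
  · intro g g_smooth g_cpt
    have hg₁ : HasCompactSupport (Complex.ofRealCLM ∘ g) := g_cpt.comp_left rfl
    have hg₂ : ContDiff ℝ ∞ (Complex.ofRealCLM ∘ g) := by fun_prop
    set G : 𝓢(ℝ, ℂ) := hg₁.toSchwartzMap hg₂ with hG
    have hGx : ∀ x, G x = (g x : ℂ) := fun x => rfl
    have e1 : ∫ x, g x • ((𝓕⁻ (h2.toLp a) : Lp E 2 (volume : Measure ℝ)) : ℝ → E) x
        = Lp.toTemperedDistribution (𝓕⁻ (h2.toLp a) : Lp E 2 (volume : Measure ℝ)) G := by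
      rw [Lp.toTemperedDistribution_apply]
      simp only [hGx, Complex.coe_smul]
    have e2 : ∫ x, g x • (𝓕⁻ a) x = ∫ x, G x • (𝓕⁻ a) x := by
      simp only [hGx, Complex.coe_smul]
    rw [e1, e2, ← Lp.fourierInv_toTemperedDistribution_eq, TemperedDistribution.fourierInv_apply,
      Lp.toTemperedDistribution_apply, ← integral_fourierInv_smul_swap G h1]
    apply integral_congr_ae
    filter_upwards [h2.coeFn_toLp] with ξ hξ
    rw [hξ]

end Vale.Agent.Lib.P371
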