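import Mathlib

open MeasureTheory Set Filter
open scoped Topology

noncomputable section

namespace Vale.Agent.Lib.P371

/-- The Lorentzian profile `p² / (p² + (2π ξ)²)`. -/
def lor (p ξ : ℝ) : ℝ := p ^ 2 / (p ^ 2 + (2 * Real.pi * ξ) ^ 2)

lemma lor_nonneg (p ξ : ℝ) : 0 ≤ lor p ξ := by
  unfold lor
  positivity

lemma lor_le_one {p : ℝ} (hp : 0 < p) (ξ : ℝ) : lor p ξ ≤ 1 := by
  unfold lor
  rw [div_le_one (by positivity)]
  nlinarith [sq_nonneg (2 * Real.pi * ξ)]

lemma lor_eq {p : ℝ} (hp : 0 < p) (ξ : ℝ) : lor p ξ = (1 + (2 * Real.pi / p * ξ) ^ 2)⁻¹ := by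
  unfold lor
  field_simp

lemma lor_continuous {p : ℝ} (hp : 0 < p) : Continuous (lor p) := by
  unfold lor
  apply Continuous.div (by fun_prop) (by fun_prop)
  intro ξ
  positivity

lemma integrable_lor {p : ℝ} (hp : 0 < p) : Integrable (lor p) := by
  have h : (lor p) = fun ξ => (fun x : ℝ => (1 + x ^ 2)⁻¹) (2 * Real.pi / p * ξ) := by
    ext ξ
    exact lor_eq hp ξ
  rw [h]
  exact integrable_inv_one_add_sq.comp_mul_left' (by positivity)

lemma integral_lor {p : ℝ} (hp : 0 < p) : ∫ ξ, lor p ξ = p / 2 := by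
  have h : (lor p) = fun ξ => (fun x : ℝ => (1 + x ^ 2)⁻¹) (2 * Real.pi / p * ξ) := by
    ext ξ
    exact lor_eq hp ξ
  rw [h, Measure.integral_comp_mul_left, integral_univ_inv_one_add_sq, smul_eq_mul,
    abs_of_pos (by positivity)]
  have := Real.pi_pos
  field_simp

/-- The antiderivative of `(1 + x²)⁻²`. -/
lemma hasDerivAt_F (x : ℝ) :
    HasDerivAt (fun x : ℝ => (x / (1 + x ^ 2) + Real.arctan x) / 2) (((1 + x ^ 2)⁻¹) ^ 2) x := by
  have h1 : HasDerivAt (fun x : ℝ => x / (1 + x ^ 2))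
      ((1 * (1 + x ^ 2) - x * (2 * x)) / (1 + x ^ 2) ^ 2) x := by
    have hd : HasDerivAt (fun x : ℝ => 1 + x ^ 2) (2 * x) x := by
      have := (hasDerivAt_id x).pow 2
      simpa using this.const_add 1
    exact (hasDerivAt_id x).div hd (by positivity)
  have h2 := Real.hasDerivAt_arctan x
  have h3 := (h1.add h2).div_const 2
  have e : ((1 + x ^ 2)⁻¹) ^ 2 =
      ((1 * (1 + x ^ 2) - x * (2 * x)) / (1 + x ^ 2) ^ 2 + 1 / (1 + x ^ 2)) / 2 := by
    have : (1 + x ^ 2) ≠ 0 := by positivity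
    field_simp
    ring
  rw [e]
  exact h3

lemma tendsto_aux_top : Tendsto (fun x : ℝ => x / (1 + x ^ 2)) atTop (𝓝 0) := by
  have h : Tendsto (fun x : ℝ => x⁻¹) atTop (𝓝 0) := tendsto_inv_atTop_zero
  refine squeeze_zero' ?_ ?_ h
  · filter_upwards [eventually_ge_atTop 0] with x hx
    positivity
  · filter_upwards [eventually_gt_atTop 0] with x hx
    rw [div_le_iff₀ (by positivity)]
    rw [inv_mul_eq_div, le_div_iff₀ hx]
    nlinarith

lemma tendsto_aux_bot : Tendsto (fun x : ℝ => x / (1 + x ^ 2)) atBot (𝓝 0) := by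
  have h := tendsto_aux_top.comp tendsto_neg_atBot_atTop
  have e : ((fun x : ℝ => x / (1 + x ^ 2)) ∘ fun x : ℝ => -x) = fun x => -(x / (1 + x ^ 2)) := by
    ext x
    simp [neg_div]
  rw [e] at h
  simpa using h.neg

lemma integrable_inv_sq : Integrable fun x : ℝ => ((1 + x ^ 2)⁻¹) ^ 2 := by
  refine integrable_inv_one_add_sq.mono' (by fun_prop) (Eventually.of_forall fun x => ?_)
  have h0 : 0 ≤ (1 + x ^ 2)⁻¹ := by positivity
  have h1 : (1 + x ^ 2)⁻¹ ≤ 1 := inv_le_one_of_one_le₀ (by nlinarith [sq_nonneg x])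
  rw [Real.norm_eq_abs, abs_of_nonneg (by positivity)]
  nlinarith

lemma integral_inv_sq : ∫ x : ℝ, ((1 + x ^ 2)⁻¹) ^ 2 = Real.pi / 2 := by
  have h := integral_of_hasDerivAt_of_tendsto hasDerivAt_F integrable_inv_sq
    (m := (0 + -(Real.pi / 2)) / 2) (n := (0 + Real.pi / 2) / 2)
    ((tendsto_aux_bot.add (tendsto_nhds_of_tendsto_nhdsWithin Real.tendsto_arctan_atBot)).div_const 2)
    ((tendsto_aux_top.add (tendsto_nhds_of_tendsto_nhdsWithin Real.tendsto_arctan_atTop)).div_const 2)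
  rw [h]
  ring

lemma integrable_lor_mul {p q : ℝ} (hp : 0 < p) (hq : 0 < q) :
    Integrable fun ξ => lor p ξ * lor q ξ := by
  refine (integrable_lor hp).mono' ((lor_continuous hp).mul (lor_continuous hq)).aestronglyMeasurable
    (Eventually.of_forall fun ξ => ?_)
  rw [Real.norm_eq_abs, abs_of_nonneg (mul_nonneg (lor_nonneg _ _) (lor_nonneg _ _))]
  exact mul_le_of_le_one_right (lor_nonneg _ _) (lor_le_one hq ξ)

lemma integral_lor_sq {p : ℝ} (hp : 0 < p) : ∫ ξ, lor p ξ * lor p ξ = p / 4 := by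
  have h : (fun ξ => lor p ξ * lor p ξ) =
      fun ξ => (fun x : ℝ => ((1 + x ^ 2)⁻¹) ^ 2) (2 * Real.pi / p * ξ) := by
    ext ξ
    rw [lor_eq hp]
    ring
  rw [h, Measure.integral_comp_mul_left (fun x : ℝ => ((1 + x ^ 2)⁻¹) ^ 2), integral_inv_sq,
    smul_eq_mul, abs_of_pos (by positivity)]
  have := Real.pi_pos
  field_simp
  ring

/-- The basic integral of a product of two Lorentzians. -/
lemma integral_lor_mul {p q : ℝ} (hp : 0 < p) (hq : 0 < q) :
    ∫ ξ, lor p ξ * lor q ξ = p * q / (2 * (p + q)) := by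
  rcases eq_or_ne p q with rfl | hne
  · rw [integral_lor_sq hp]
    field_simp
    ring
  have hd : q ^ 2 - p ^ 2 ≠ 0 := by
    intro h0
    have h1 : (q - p) * (q + p) = 0 := by ring_nf; linarith
    rcases mul_eq_zero.mp h1 with h2 | h2
    · exact hne (by linarith)
    · linarith
  have e : (fun ξ => lor p ξ * lor q ξ) =
      fun ξ => (q ^ 2 / (q ^ 2 - p ^ 2)) * lor p ξ - (p ^ 2 / (q ^ 2 - p ^ 2)) * lor q ξ := by
    ext ξ
    unfold lor
    have h1 : p ^ 2 + (2 * Real.pi * ξ) ^ 2 ≠ 0 := by positivity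
    have h2 : q ^ 2 + (2 * Real.pi * ξ) ^ 2 ≠ 0 := by positivity
    field_simp
    ring
  rw [e, integral_sub ((integrable_lor hp).const_mul _) ((integrable_lor hq).const_mul _),
    integral_const_mul, integral_const_mul, integral_lor hp, integral_lor hq]
  have h3 : q - p ≠ 0 := sub_ne_zero.mpr hne.symm
  have h4 : q + p ≠ 0 := by positivity
  have h5 : p + q ≠ 0 := by positivity
  have h6 : q ^ 2 - p ^ 2 = (q - p) * (q + p) := by ring
  rw [h6]
  field_simp
  ring

end Vale.Agent.Lib.P371
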