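import Vale.Agent.Lib.P371.MainF
import Vale.Agent.Lib.P371.Lor

open MeasureTheory Set Filter
open scoped ENNReal Topology

noncomputable section

namespace Vale.Agent.Lib.P371

/-- The heat features. -/
def heatF (t ξ : ℝ) : ℝ :=
  if 0 < t then (2 * Real.pi * ξ) ^ 2 * Real.exp (-(t * (2 * Real.pi * ξ) ^ 2)) else 0

lemma measurable_heatF : Measurable (Function.uncurry heatF) := by
  have : Function.uncurry heatF = fun q : ℝ × ℝ =>
      if 0 < q.1 then (2 * Real.pi * q.2) ^ 2 * Real.exp (-(q.1 * (2 * Real.pi * q.2) ^ 2)) else 0 := by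
    ext ⟨t, ξ⟩
    rfl
  rw [this]
  refine Measurable.ite (measurableSet_lt measurable_const measurable_fst) ?_ measurable_const
  fun_prop

lemma heatF_nonneg (t ξ : ℝ) : 0 ≤ heatF t ξ := by
  unfold heatF
  split_ifs <;> positivity

lemma heatF_bound (t : ℝ) : ∃ C, ∀ ξ, |heatF t ξ| ≤ C := by
  refine ⟨|t|⁻¹, fun ξ => ?_⟩
  rw [abs_of_nonneg (heatF_nonneg t ξ)]
  unfold heatF
  split_ifs with ht
  · rw [abs_of_pos ht]
    set y := (2 * Real.pi * ξ) ^ 2 with hy
    have hy0 : 0 ≤ y := by positivity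
    have h1 : t * y + 1 ≤ Real.exp (t * y) := Real.add_one_le_exp _
    have h2 : Real.exp (-(t * y)) = (Real.exp (t * y))⁻¹ := Real.exp_neg _
    have h3 : y * t ≤ Real.exp (t * y) := by nlinarith
    have hexp := Real.exp_pos (t * y)
    rw [h2]
    calc y * (Real.exp (t * y))⁻¹ = (y * t) * (t⁻¹ * (Real.exp (t * y))⁻¹) := by
          field_simp
      _ ≤ Real.exp (t * y) * (t⁻¹ * (Real.exp (t * y))⁻¹) := by gcongr
      _ = t⁻¹ := by field_simp
  · positivity

lemma integrableOn_exp {q : ℝ} (hq : 0 < q) :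
    IntegrableOn (fun t : ℝ => Real.exp (-(q * t))) (Ioi 0) := by
  have := integrableOn_exp_mul_Ioi (a := -q) (by linarith) 0
  simpa [neg_mul] using this

lemma integral_exp {q : ℝ} (hq : 0 < q) : ∫ t in Ioi (0:ℝ), Real.exp (-(q * t)) = 1 / q := by
  have := integral_exp_mul_Ioi (a := -q) (by linarith) 0
  simp only [neg_mul, mul_zero, Real.exp_zero] at this
  rw [this]
  field_simp

lemma heat_pair_eq (p ξ : ℝ) : EqOn (fun t => Real.exp (-(p * t)) * heatF t ξ)
    (fun t => (2 * Real.pi * ξ) ^ 2 * Real.exp (-((p + (2 * Real.pi * ξ) ^ 2) * t))) (Ioi 0) := by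
  intro t ht
  have ht' : (0:ℝ) < t := ht
  simp only [heatF, if_pos ht']
  rw [mul_left_comm, ← Real.exp_add]
  congr 2
  ring

lemma heat_pair_integrable {p : ℝ} (hp : 0 < p) (ξ : ℝ) :
    IntegrableOn (fun t => Real.exp (-(p * t)) * heatF t ξ) (Ioi 0) := by
  refine (integrableOn_congr_fun (heat_pair_eq p ξ) measurableSet_Ioi).mpr ?_
  exact (integrableOn_exp (by positivity)).const_mul _

lemma heat_pair_integral {P : ℝ} (hP : 0 < P) (ξ : ℝ) :
    ∫ t in Ioi (0:ℝ), Real.exp (-(P ^ 2 * t)) * heatF t ξ = 1 - lor P ξ := by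
  rw [setIntegral_congr_fun measurableSet_Ioi (heat_pair_eq (P ^ 2) ξ), integral_const_mul,
    integral_exp (by positivity)]
  unfold lor
  have h1 : P ^ 2 + (2 * Real.pi * ξ) ^ 2 ≠ 0 := by positivity
  field_simp
  ring

/-- The energy identity of the heat features. -/
lemma heat_energy (ξ : ℝ) :
    ∫⁻ t, ‖heatF t ξ‖ₑ ^ 2 ∂(volume.restrict (Ioi (0:ℝ))) ≤
      ENNReal.ofReal ((2 * Real.pi * ξ) ^ 2 / 2) := by
  set y := (2 * Real.pi * ξ) ^ 2 with hy
  have hy0 : 0 ≤ y := by positivity
  rcases eq_or_lt_of_le hy0 with h0 | hpos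
  · have : ∀ t, heatF t ξ = 0 := by
      intro t
      unfold heatF
      split_ifs
      · rw [← hy, ← h0, zero_mul]
      · rfl
    simp [this]
  have e : EqOn (fun t => heatF t ξ ^ 2) (fun t => y ^ 2 * Real.exp (-((2 * y) * t))) (Ioi 0) := by
    intro t ht
    have ht' : (0:ℝ) < t := ht
    simp only [heatF, if_pos ht', ← hy]
    rw [mul_pow, ← Real.exp_nat_mul]
    congr 2
    push_cast
    ring
  have hi : IntegrableOn (fun t => heatF t ξ ^ 2) (Ioi 0) :=
    (integrableOn_congr_fun e measurableSet_Ioi).mpr ((integrableOn_exp (by positivity)).const_mul _)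
  have h1 : ∫⁻ t, ‖heatF t ξ‖ₑ ^ 2 ∂(volume.restrict (Ioi (0:ℝ))) =
      ENNReal.ofReal (∫ t in Ioi (0:ℝ), heatF t ξ ^ 2) := by
    rw [ofReal_integral_eq_lintegral_ofReal hi (Eventually.of_forall fun t => by positivity)]
    apply lintegral_congr
    intro t
    rw [ENNReal.ofReal_pow (heatF_nonneg t ξ), ← ofReal_norm, Real.norm_eq_abs,
      abs_of_nonneg (heatF_nonneg t ξ)]
  rw [h1, setIntegral_congr_fun measurableSet_Ioi e, integral_const_mul,
    integral_exp (by positivity)]
  apply le_of_eq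
  congr 1
  field_simp

section Mix

variable {ι : Type*} [Fintype ι]

/-- Double sum expansion for the square of a finite combination. -/
lemma integral_sq_sum {X : Type*} [MeasurableSpace X] {μ : Measure X} (a : ι → ℝ) (φ : ι → X → ℝ)
    (h : ∀ i k, Integrable (fun x => φ i x * φ k x) μ) :
    ∫ x, (∑ i, a i * φ i x) ^ 2 ∂μ = ∑ i, ∑ k, a i * a k * ∫ x, φ i x * φ k x ∂μ := by
  have e : ∀ x, (∑ i, a i * φ i x) ^ 2 = ∑ i, ∑ k, a i * a k * (φ i x * φ k x) := by
    intro x
    rw [sq, Finset.sum_mul_sum]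
    refine Finset.sum_congr rfl fun i _ => Finset.sum_congr rfl fun k _ => ?_
    ring
  simp only [e]
  rw [integral_finsetSum _ fun i _ => integrable_finsetSum _ fun k _ => (h i k).const_mul _]
  refine Finset.sum_congr rfl fun i _ => ?_
  rw [integral_finsetSum _ fun k _ => (h i k).const_mul _]
  refine Finset.sum_congr rfl fun k _ => ?_
  rw [integral_const_mul]

/-- The mixture of Lorentzians. -/
def uMix (a c : ι → ℝ) (s ξ : ℝ) : ℝ := ∑ i, a i * lor (s * c i) ξ

/-- The mixture of exponentials. -/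
def gMix (a c : ι → ℝ) (s t : ℝ) : ℝ := ∑ i, a i * Real.exp (-((s * c i) ^ 2 * t))

/-- The low frequency constant of a mixture. -/
def alphaMix (a c : ι → ℝ) : ℝ := ∑ i, ∑ k, a i * a k * (c i * c k / (2 * (c i + c k)))

/-- The weight constant of a mixture. -/
def GMix (a c : ι → ℝ) : ℝ := ∑ i, ∑ k, a i * a k * (1 / (c i ^ 2 + c k ^ 2))

lemma memLp_lor {p : ℝ} (hp : 0 < p) : MemLp (lor p) 2 volume := by
  rw [memLp_two_iff_integrable_sq (lor_continuous hp).aestronglyMeasurable]
  have := integrable_lor_mul hp hp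
  simpa [sq] using this

lemma memLp_expF {q : ℝ} (hq : 0 < q) :
    MemLp (fun t : ℝ => Real.exp (-(q * t))) 2 (volume.restrict (Ioi (0:ℝ))) := by
  rw [memLp_two_iff_integrable_sq (by fun_prop)]
  have h := integrableOn_exp (q := 2 * q) (by positivity)
  refine (integrable_congr ?_).mp h
  filter_upwards with t
  rw [← Real.exp_nat_mul]
  congr 1
  push_cast
  ring

lemma integrable_expF_mul {q r : ℝ} (hq : 0 < q) (hr : 0 < r) :
    IntegrableOn (fun t : ℝ => Real.exp (-(q * t)) * Real.exp (-(r * t))) (Ioi 0) := by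
  have h := integrableOn_exp (q := q + r) (by positivity)
  refine (integrable_congr ?_).mp h
  filter_upwards with t
  rw [← Real.exp_add]
  congr 1
  ring

lemma integral_expF_mul {q r : ℝ} (hq : 0 < q) (hr : 0 < r) :
    ∫ t in Ioi (0:ℝ), Real.exp (-(q * t)) * Real.exp (-(r * t)) = 1 / (q + r) := by
  have e : ∀ t : ℝ, Real.exp (-(q * t)) * Real.exp (-(r * t)) = Real.exp (-((q + r) * t)) := by
    intro t
    rw [← Real.exp_add]
    congr 1
    ring
  simp only [e]
  exact integral_exp (by positivity)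

/-- The scale data of a mixture. -/
theorem scaleData_mix (a c : ι → ℝ) (hc : ∀ i, 0 < c i) (ha : ∑ i, a i = 1) :
    ScaleData (volume.restrict (Ioi (0:ℝ))) heatF (alphaMix a c) (GMix a c) := by
  intro s hs
  have hp : ∀ i, 0 < s * c i := fun i => mul_pos hs (hc i)
  have hp2 : ∀ i, 0 < (s * c i) ^ 2 := fun i => pow_pos (hp i) 2
  refine ⟨uMix a c s, gMix a c s, ∑ i, |a i|, ?_, ?_, ?_, ?_, ?_, ?_⟩
  · have : uMix a c s = fun ξ => ∑ i, a i * lor (s * c i) ξ := rfl
    rw [this]
    exact memLp_finsetSum _ fun i _ => (memLp_lor (hp i)).const_mul _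
  · have : gMix a c s = fun t => ∑ i, a i * Real.exp (-((s * c i) ^ 2 * t)) := rfl
    rw [this]
    exact memLp_finsetSum _ fun i _ => (memLp_expF (hp2 i)).const_mul _
  · refine Eventually.of_forall fun ξ => ?_
    simp only [gMix, Finset.sum_mul]
    rw [integral_finsetSum _ fun i _ => ?_]
    · have e : ∀ i, ∫ t in Ioi (0:ℝ), a i * Real.exp (-((s * c i) ^ 2 * t)) * heatF t ξ =
          a i * (1 - lor (s * c i) ξ) := by
        intro i
        simp only [mul_assoc]
        rw [integral_const_mul, heat_pair_integral (hp i)]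
      simp only [e, mul_sub, mul_one, Finset.sum_sub_distrib, ha, uMix]
    · simp only [mul_assoc]
      exact (heat_pair_integrable (hp2 i) ξ).const_mul _
  · refine Eventually.of_forall fun ξ => ?_
    have hint : ∀ i, Integrable (fun t => a i * (Real.exp (-((s * c i) ^ 2 * t)) * heatF t ξ))
        (volume.restrict (Ioi (0:ℝ))) := fun i =>
      (heat_pair_integrable (hp2 i) ξ).const_mul _
    constructor
    · simp only [gMix, Finset.sum_mul, mul_assoc]
      exact integrable_finsetSum _ fun i _ => hint i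
    · have hle : ∀ t, |gMix a c s t * heatF t ξ| ≤
          ∑ i, |a i| * (Real.exp (-((s * c i) ^ 2 * t)) * heatF t ξ) := by
        intro t
        simp only [gMix, Finset.sum_mul, mul_assoc]
        refine (Finset.abs_sum_le_sum_abs _ _).trans (Finset.sum_le_sum fun i _ => ?_)
        rw [abs_mul, abs_of_nonneg (mul_nonneg (Real.exp_pos _).le (heatF_nonneg t ξ))]
      have hint2 : ∀ i, Integrable (fun t => |a i| * (Real.exp (-((s * c i) ^ 2 * t)) * heatF t ξ))
          (volume.restrict (Ioi (0:ℝ))) := fun i =>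
        (heat_pair_integrable (hp2 i) ξ).const_mul _
      have hint3 : Integrable (fun t => |gMix a c s t * heatF t ξ|)
          (volume.restrict (Ioi (0:ℝ))) := by
        have : Integrable (fun t => gMix a c s t * heatF t ξ) (volume.restrict (Ioi (0:ℝ))) := by
          simp only [gMix, Finset.sum_mul, mul_assoc]
          exact integrable_finsetSum _ fun i _ => hint i
        exact this.abs
      calc ∫ t in Ioi (0:ℝ), |gMix a c s t * heatF t ξ|
          ≤ ∫ t in Ioi (0:ℝ), ∑ i, |a i| * (Real.exp (-((s * c i) ^ 2 * t)) * heatF t ξ) :=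
            integral_mono hint3 (integrable_finsetSum _ fun i _ => hint2 i) hle
        _ = ∑ i, |a i| * (1 - lor (s * c i) ξ) := by
            rw [integral_finsetSum _ fun i _ => hint2 i]
            refine Finset.sum_congr rfl fun i _ => ?_
            rw [integral_const_mul, heat_pair_integral (hp i)]
        _ ≤ ∑ i, |a i| := by
            refine Finset.sum_le_sum fun i _ => ?_
            have := lor_nonneg (s * c i) ξ
            have h2 := abs_nonneg (a i)
            nlinarith
  · apply le_of_eq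
    simp only [uMix]
    rw [integral_sq_sum a (fun i ξ => lor (s * c i) ξ)
      (fun i k => integrable_lor_mul (hp i) (hp k))]
    simp only [integral_lor_mul (hp _) (hp _), alphaMix, Finset.sum_mul]
    refine Finset.sum_congr rfl fun i _ => Finset.sum_congr rfl fun k _ => ?_
    have h1 := (hc i).ne'
    have h2 := (hc k).ne'
    have h3 : c i + c k ≠ 0 := (add_pos (hc i) (hc k)).ne'
    have h4 := hs.ne'
    field_simp
  · apply le_of_eq
    simp only [gMix]
    rw [integral_sq_sum a (fun i t => Real.exp (-((s * c i) ^ 2 * t)))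
      (fun i k => integrable_expF_mul (hp2 i) (hp2 k))]
    simp only [integral_expF_mul (hp2 _) (hp2 _), GMix, Finset.sum_div]
    refine Finset.sum_congr rfl fun i _ => Finset.sum_congr rfl fun k _ => ?_
    have h1 := (hc i).ne'
    have h2 := (hc k).ne'
    have h3 : c i ^ 2 + c k ^ 2 ≠ 0 := (add_pos (pow_pos (hc i) 2) (pow_pos (hc k) 2)).ne'
    have h4 := hs.ne'
    have h5 : (s * c i) ^ 2 + (s * c k) ^ 2 ≠ 0 := (add_pos (hp2 i) (hp2 k)).ne'
    field_simp

end Mix

end Vale.Agent.Lib.P371
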