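import Vale.Agent.Lib.P371.Alg

open MeasureTheory FourierTransform SchwartzMap Set Filter
open scoped ENNReal Topology InnerProductSpace Matrix ComplexOrder

noncomputable section

namespace Vale.Agent.Lib.P371

variable {Ω : Type*} [MeasurableSpace Ω] {ν : Measure Ω} [SFinite ν]
variable {m : ℕ} {ι : Type*} [Fintype ι] [DecidableEq ι]

/-- The family of decompositions that the argument needs, at every scale `s`. -/
def ScaleData (ν : Measure Ω) (f : Ω → ℝ → ℝ) (α G : ℝ) : Prop :=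
  ∀ s : ℝ, 0 < s → ∃ (u : ℝ → ℝ) (g : Ω → ℝ) (C : ℝ),
    MemLp u 2 volume ∧ MemLp g 2 ν ∧ (∀ᵐ ξ, ∫ ω, g ω * f ω ξ ∂ν = 1 - u ξ) ∧
    (∀ᵐ ξ, Integrable (fun ω => g ω * f ω ξ) ν ∧ ∫ ω, |g ω * f ω ξ| ∂ν ≤ C) ∧
    ∫ ξ, u ξ ^ 2 ≤ α * s ∧ ∫ ω, g ω ^ 2 ∂ν ≤ G / s ^ 2

/-- The pointwise inequality at a good point `x`. -/
lemma pointwise_main {φ : ι → ℝ → EuclideanSpace ℂ (Fin m)} (hm : ∀ j, StronglyMeasurable (φ j))
    (h1 : ∀ j, Integrable (φ j)) (h2 : ∀ j, MemLp (φ j) 2 volume)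
    (orth : ∀ i j, ∫ ξ, ⟪φ i ξ, φ j ξ⟫_ℂ = if i = j then (1 : ℂ) else 0)
    {f : Ω → ℝ → ℝ} (hf : Measurable (Function.uncurry f)) (hfb : ∀ ω, ∃ C, ∀ ξ, |f ω ξ| ≤ C)
    {α G : ℝ} (hα : 0 ≤ α) (hG : 0 < G) (hS : ScaleData ν f α G)
    (x : ℝ) (hb : ∀ j, MemLp (fun ω => Bf f (φ j) ω x) 2 ν)
    {A : Matrix (Fin m) (Fin m) ℂ} (hA : A.PosSemidef) :
    ∑ j, (star (𝓕⁻ (φ j) x).ofLp ⬝ᵥ (A *ᵥ (𝓕⁻ (φ j) x).ofLp)).re ≤
      2 * ∑ j, ∫ ω, ‖Bf f (φ j) ω x‖ ^ 2 ∂ν +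
        (3 / 2 * √(3 / 2) * α * √G) * ∑ a, (hA.isHermitian.eigenvalues a) ^ (3 / 2 : ℝ) := by
  set hH := hA.isHermitian with hhH
  set b := hH.eigenvectorBasis with hb'
  have hbv : ∀ j a, MemLp (fun ω => ⟪b a, Bf f (φ j) ω x⟫_ℂ) 2 ν :=
    fun j a => (hb j).const_inner _
  have key : ∀ a, hH.eigenvalues a * ∑ j, ‖⟪b a, 𝓕⁻ (φ j) x⟫_ℂ‖ ^ 2 ≤
      2 * ∑ j, ∫ ω, ‖⟪b a, Bf f (φ j) ω x⟫_ℂ‖ ^ 2 ∂ν +
        (3 / 2 * √(3 / 2) * α * √G) * (hH.eigenvalues a) ^ (3 / 2 : ℝ) := by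
    intro a
    apply algebra_key (Finset.sum_nonneg fun j _ => by positivity)
      (Finset.sum_nonneg fun j _ => integral_nonneg fun _ => by positivity)
      (hA.eigenvalues_nonneg a) hα hG
    intro s hs
    obtain ⟨u, g, C, hu, hg, hdec, hC, hu2, hg2⟩ := hS s hs
    have hv : ‖b a‖ = 1 := b.orthonormal.1 a
    refine (rho_bound hm h1 h2 orth hu hf hfb hg hdec hC x hb (b a) hv).trans ?_
    gcongr
  have e1 : ∀ j, (star (𝓕⁻ (φ j) x).ofLp ⬝ᵥ (A *ᵥ (𝓕⁻ (φ j) x).ofLp)).re =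
      ∑ a, hH.eigenvalues a * ‖⟪b a, 𝓕⁻ (φ j) x⟫_ℂ‖ ^ 2 := fun j => re_quadratic_eq hH _
  have e2 : ∀ j, ∫ ω, ‖Bf f (φ j) ω x‖ ^ 2 ∂ν = ∑ a, ∫ ω, ‖⟪b a, Bf f (φ j) ω x⟫_ℂ‖ ^ 2 ∂ν := by
    intro j
    rw [← integral_finsetSum _ fun a _ => integrable_sq_norm (hbv j a)]
    congr 1
    ext ω
    exact (b.sum_sq_norm_inner_right _).symm
  simp only [e1, e2]
  rw [Finset.sum_comm]
  calc ∑ a, ∑ j, hH.eigenvalues a * ‖⟪b a, 𝓕⁻ (φ j) x⟫_ℂ‖ ^ 2
      = ∑ a, hH.eigenvalues a * ∑ j, ‖⟪b a, 𝓕⁻ (φ j) x⟫_ℂ‖ ^ 2 := by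
        simp only [Finset.mul_sum]
    _ ≤ ∑ a, (2 * ∑ j, ∫ ω, ‖⟪b a, Bf f (φ j) ω x⟫_ℂ‖ ^ 2 ∂ν +
        (3 / 2 * √(3 / 2) * α * √G) * (hH.eigenvalues a) ^ (3 / 2 : ℝ)) :=
        Finset.sum_le_sum fun a _ => key a
    _ = _ := by
        rw [Finset.sum_add_distrib, ← Finset.mul_sum, ← Finset.mul_sum, Finset.sum_comm]

section Integrated

variable {E : Type*} [NormedAddCommGroup E] [InnerProductSpace ℂ E] [CompleteSpace E]
  [MeasurableSpace E] [BorelSpace E]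

lemma stronglyMeasurable_fourierInv {a : ℝ → E} (ha : StronglyMeasurable a) :
    StronglyMeasurable (𝓕⁻ a) := by
  have : (𝓕⁻ a) = fun x : ℝ =>
      ∫ ξ, ((Real.fourierChar (inner ℝ ξ x) : Circle) : ℂ) • a ξ := by
    ext x
    rw [Real.fourierInv_eq]
    rfl
  rw [this]
  apply StronglyMeasurable.integral_prod_right'
    (f := fun q : ℝ × ℝ => ((Real.fourierChar (inner ℝ q.2 q.1) : Circle) : ℂ) • a q.2)
  apply StronglyMeasurable.smul
  · exact (continuous_char.measurable.comp (measurable_snd.prodMk measurable_fst)).stronglyMeasurable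
  · exact ha.comp_measurable measurable_snd

end Integrated

lemma measurable_re_quadratic {y : ℝ → EuclideanSpace ℂ (Fin m)} (hy : StronglyMeasurable y)
    {W : ℝ → Matrix (Fin m) (Fin m) ℂ} (hWm : ∀ a b, Measurable fun x => W x a b) :
    Measurable fun x => (star (y x).ofLp ⬝ᵥ (W x *ᵥ (y x).ofLp)).re := by
  have hy' : ∀ a, Measurable fun x => (y x).ofLp a := by
    intro a
    have : Continuous fun v : EuclideanSpace ℂ (Fin m) => v.ofLp a := by fun_prop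
    exact this.measurable.comp hy.measurable
  apply Complex.measurable_re.comp
  simp only [dotProduct, Matrix.mulVec, Pi.star_apply]
  apply Finset.measurable_sum
  intro a _
  apply Measurable.mul
  · exact continuous_star.measurable.comp (hy' a)
  · apply Finset.measurable_sum
    intro b _
    exact (hWm a b).mul (hy' b)

/-- The integrated inequality on the Fourier side. -/
theorem main_fourier {φ : ι → ℝ → EuclideanSpace ℂ (Fin m)} (hm : ∀ j, StronglyMeasurable (φ j))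
    (h1 : ∀ j, Integrable (φ j)) (h2 : ∀ j, MemLp (φ j) 2 volume)
    (orth : ∀ i j, ∫ ξ, ⟪φ i ξ, φ j ξ⟫_ℂ = if i = j then (1 : ℂ) else 0)
    (hη : ∀ j, Integrable fun ξ => (2 * Real.pi * ξ) ^ 2 * ‖φ j ξ‖ ^ 2)
    {W : ℝ → Matrix (Fin m) (Fin m) ℂ} (hWm : ∀ a b, Measurable fun x => W x a b)
    (hW : ∀ x, (W x).PosSemidef)
    (htr : Integrable fun x => ∑ a, ((hW x).isHermitian.eigenvalues a) ^ (3 / 2 : ℝ))
    {f : Ω → ℝ → ℝ} (hf : Measurable (Function.uncurry f)) (hfb : ∀ ω, ∃ C, ∀ ξ, |f ω ξ| ≤ C)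
    (hE : ∀ ξ, ∫⁻ ω, ‖f ω ξ‖ₑ ^ 2 ∂ν ≤ ENNReal.ofReal ((2 * Real.pi * ξ) ^ 2 / 2))
    {α G : ℝ} (hα : 0 ≤ α) (hG : 0 < G) (hS : ScaleData ν f α G) :
    (∀ j, Integrable fun x =>
      (star (𝓕⁻ (φ j) x).ofLp ⬝ᵥ (W x *ᵥ (𝓕⁻ (φ j) x).ofLp)).re) ∧
    ∑ j, ∫ x, (star (𝓕⁻ (φ j) x).ofLp ⬝ᵥ (W x *ᵥ (𝓕⁻ (φ j) x).ofLp)).re ≤
      (∑ j, ∫ ξ, (2 * Real.pi * ξ) ^ 2 * ‖φ j ξ‖ ^ 2) +
        (3 / 2 * √(3 / 2) * α * √G) *
          ∫ x, ∑ a, ((hW x).isHermitian.eigenvalues a) ^ (3 / 2 : ℝ) := by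
  set c : ℝ := 3 / 2 * √(3 / 2) * α * √G with hc
  have hc0 : 0 ≤ c := by positivity
  set P : ι → ℝ → ℝ := fun j x => (star (𝓕⁻ (φ j) x).ofLp ⬝ᵥ (W x *ᵥ (𝓕⁻ (φ j) x).ofLp)).re with hP
  set tr : ℝ → ℝ := fun x => ∑ a, ((hW x).isHermitian.eigenvalues a) ^ (3 / 2 : ℝ) with htrd
  have htr0 : ∀ x, 0 ≤ tr x := fun x => Finset.sum_nonneg fun a _ =>
    Real.rpow_nonneg ((hW x).eigenvalues_nonneg a) _
  set T : ι → ℝ → ℝ≥0∞ := fun j x => ∫⁻ ω, ‖Bf f (φ j) ω x‖ₑ ^ 2 ∂ν with hT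
  have hPm : ∀ j, Measurable (P j) := fun j =>
    measurable_re_quadratic (stronglyMeasurable_fourierInv (hm j)) hWm
  have hP0 : ∀ j x, 0 ≤ P j x := by
    intro j x
    simp only [hP]
    rw [re_quadratic_eq (hW x).isHermitian]
    exact Finset.sum_nonneg fun a _ =>
      mul_nonneg ((hW x).eigenvalues_nonneg a) (by positivity)
  -- the energy
  have hTm : ∀ j, Measurable (T j) := by
    intro j
    apply Measurable.lintegral_prod_right'
      (f := fun q : ℝ × Ω => ‖Function.uncurry (Bf f (φ j)) (q.2, q.1)‖ₑ ^ 2)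
    exact ((stronglyMeasurable_Bf hf (hm j)).measurable.comp measurable_swap).enorm.pow_const 2
  have hTint : ∀ j, ∫⁻ x, T j x ≤
      ENNReal.ofReal ((∫ ξ, (2 * Real.pi * ξ) ^ 2 * ‖φ j ξ‖ ^ 2) / 2) := by
    intro j
    simp only [hT]
    rw [energy_Bf hf (hm j) (h1 j) (h2 j) (Eventually.of_forall hfb)]
    rw [← integral_div, ofReal_integral_eq_lintegral_ofReal ((hη j).div_const 2)
      (Eventually.of_forall fun ξ => by positivity)]
    apply lintegral_mono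
    intro ξ
    have e : ENNReal.ofReal ((2 * Real.pi * ξ) ^ 2 * ‖φ j ξ‖ ^ 2 / 2) =
        ENNReal.ofReal ((2 * Real.pi * ξ) ^ 2 / 2) * ‖φ j ξ‖ₑ ^ 2 := by
      rw [← ofReal_norm, ← ENNReal.ofReal_pow (norm_nonneg _),
        ← ENNReal.ofReal_mul (by positivity)]
      congr 1
      ring
    beta_reduce
    rw [e]
    gcongr
    exact hE ξ
  have hTfin : ∀ j, ∫⁻ x, T j x ≠ ∞ := fun j =>
    ne_of_lt ((hTint j).trans_lt ENNReal.ofReal_lt_top)
  have hgood : ∀ᵐ x, ∀ j, T j x < ∞ :=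
    ae_all_iff.mpr fun j => ae_lt_top (hTm j) (hTfin j)
  have hBm : ∀ j x, AEStronglyMeasurable (fun ω => Bf f (φ j) ω x) ν := fun j x =>
    ((stronglyMeasurable_Bf hf (hm j)).comp_measurable
      (measurable_id.prodMk measurable_const)).aestronglyMeasurable
  have hBL : ∀ j x, T j x < ∞ → MemLp (fun ω => Bf f (φ j) ω x) 2 ν := by
    intro j x hx
    refine ⟨hBm j x, ?_⟩
    simp only [hT] at hx
    rw [lintegral_enorm_sq] at hx
    exact (ENNReal.pow_lt_top_iff.mp hx).resolve_right (by norm_num)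
  have hBT : ∀ j x, T j x < ∞ →
      ENNReal.ofReal (∫ ω, ‖Bf f (φ j) ω x‖ ^ 2 ∂ν) = T j x := by
    intro j x hx
    rw [ofReal_integral_eq_lintegral_ofReal (integrable_sq_norm (hBL j x hx))
      (Eventually.of_forall fun ω => by positivity)]
    simp only [hT]
    apply lintegral_congr
    intro ω
    rw [ENNReal.ofReal_pow (norm_nonneg _), ofReal_norm]
  -- the pointwise inequality
  have hpt : ∀ᵐ x, ENNReal.ofReal (∑ j, P j x) ≤
      2 * ∑ j, T j x + ENNReal.ofReal (c * tr x) := by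
    filter_upwards [hgood] with x hx
    have hmain : ∑ j, P j x ≤ 2 * ∑ j, ∫ ω, ‖Bf f (φ j) ω x‖ ^ 2 ∂ν + c * tr x :=
      pointwise_main hm h1 h2 orth hf hfb hα hG hS x (fun j => hBL j x (hx j)) (hW x)
    refine (ENNReal.ofReal_le_ofReal hmain).trans ?_
    have h3 : 0 ≤ ∑ j, ∫ ω, ‖Bf f (φ j) ω x‖ ^ 2 ∂ν :=
      Finset.sum_nonneg fun j _ => integral_nonneg fun _ => by positivity
    rw [ENNReal.ofReal_add (by positivity) (mul_nonneg hc0 (htr0 x)),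
      ENNReal.ofReal_mul (by norm_num),
      ENNReal.ofReal_sum_of_nonneg (fun j _ => integral_nonneg fun _ => by positivity)]
    simp only [hBT _ _ (hx _)]
    rw [show ENNReal.ofReal 2 = 2 by simp]
  -- integrate
  have hcomb : ∫⁻ x, ENNReal.ofReal (∑ j, P j x) ≤
      ENNReal.ofReal ((∑ j, ∫ ξ, (2 * Real.pi * ξ) ^ 2 * ‖φ j ξ‖ ^ 2) + c * ∫ x, tr x) := by
    have hnn : ∀ j, 0 ≤ ∫ ξ, (2 * Real.pi * ξ) ^ 2 * ‖φ j ξ‖ ^ 2 := fun j =>
      integral_nonneg fun _ => by positivity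
    calc ∫⁻ x, ENNReal.ofReal (∑ j, P j x)
        ≤ ∫⁻ x, (2 * ∑ j, T j x + ENNReal.ofReal (c * tr x)) := lintegral_mono_ae hpt
      _ = (2 * ∑ j, ∫⁻ x, T j x) + ∫⁻ x, ENNReal.ofReal (c * tr x) := by
          have hsm : Measurable fun x => ∑ j, T j x := Finset.measurable_sum _ fun j _ => hTm j
          rw [lintegral_add_left (hsm.const_mul 2), lintegral_const_mul 2 hsm,
            lintegral_finsetSum _ fun j _ => hTm j]
      _ ≤ 2 * ∑ j, ENNReal.ofReal ((∫ ξ, (2 * Real.pi * ξ) ^ 2 * ‖φ j ξ‖ ^ 2) / 2) +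
            ENNReal.ofReal (c * ∫ x, tr x) := by
          gcongr with j
          · exact hTint j
          · rw [← integral_const_mul, ofReal_integral_eq_lintegral_ofReal (htr.const_mul c)
              (Eventually.of_forall fun x => mul_nonneg hc0 (htr0 x))]
      _ = _ := by
          rw [ENNReal.ofReal_add (Finset.sum_nonneg fun j _ => hnn j)
            (mul_nonneg hc0 (integral_nonneg htr0))]
          congr 1
          rw [← ENNReal.ofReal_sum_of_nonneg (fun j _ => by have := hnn j; positivity)]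
          have e2 : (2 : ℝ≥0∞) = ENNReal.ofReal 2 := by simp
          calc (2 : ℝ≥0∞) * ENNReal.ofReal (∑ j, (∫ ξ, (2 * Real.pi * ξ) ^ 2 * ‖φ j ξ‖ ^ 2) / 2)
              = ENNReal.ofReal 2 *
                  ENNReal.ofReal (∑ j, (∫ ξ, (2 * Real.pi * ξ) ^ 2 * ‖φ j ξ‖ ^ 2) / 2) := by
                rw [← e2]
            _ = _ := by
                rw [← ENNReal.ofReal_mul (by norm_num), Finset.mul_sum]
                congr 1
                exact Finset.sum_congr rfl fun j _ => by ring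
  have hint : ∀ j, Integrable (P j) := by
    intro j
    refine ⟨(hPm j).aestronglyMeasurable, ?_⟩
    rw [hasFiniteIntegral_iff_ofReal (Eventually.of_forall fun x => hP0 j x)]
    refine lt_of_le_of_lt ?_ (hcomb.trans_lt ENNReal.ofReal_lt_top)
    apply lintegral_mono
    intro x
    apply ENNReal.ofReal_le_ofReal
    exact Finset.single_le_sum (f := fun j => P j x) (fun i _ => hP0 i x) (Finset.mem_univ j)
  refine ⟨hint, ?_⟩
  rw [← integral_finsetSum _ fun j _ => hint j]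
  have hsum : Integrable fun x => ∑ j, P j x := integrable_finsetSum _ fun j _ => hint j
  rw [← ofReal_integral_eq_lintegral_ofReal hsum
    (Eventually.of_forall fun x => Finset.sum_nonneg fun j _ => hP0 j x)] at hcomb
  have hRHS : 0 ≤ (∑ j, ∫ ξ, (2 * Real.pi * ξ) ^ 2 * ‖φ j ξ‖ ^ 2) + c * ∫ x, tr x :=
    add_nonneg (Finset.sum_nonneg fun j _ => integral_nonneg fun _ => by positivity)
      (mul_nonneg hc0 (integral_nonneg htr0))
  exact (ENNReal.ofReal_le_ofReal_iff hRHS).mp hcomb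

end Vale.Agent.Lib.P371
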