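import Vale.Agent.Lib.P371.Core

open MeasureTheory FourierTransform SchwartzMap Set Filter
open scoped ENNReal Topology

noncomputable section

namespace Vale.Agent.Lib.P371

variable {Ω : Type*} [MeasurableSpace Ω] {ν : Measure Ω} [SFinite ν]

/-- The key pointwise bound for one scalar function. -/
lemma scalar_bound {h : ℝ → ℂ} (hh1 : Integrable h) (hh2 : MemLp h 2 volume)
    {u : ℝ → ℝ} (hu : MemLp u 2 volume)
    {f : Ω → ℝ → ℝ} (hf : Measurable (Function.uncurry f))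
    {g : Ω → ℝ} (hg : MemLp g 2 ν)
    (hdec : ∀ᵐ ξ, ∫ ω, g ω * f ω ξ ∂ν = 1 - u ξ)
    {C : ℝ} (hC : ∀ᵐ ξ, Integrable (fun ω => g ω * f ω ξ) ν ∧ ∫ ω, |g ω * f ω ξ| ∂ν ≤ C)
    (x : ℝ) (hb : MemLp (fun ω => Bf f h ω x) 2 ν) :
    ‖𝓕⁻ h x‖ ≤ √(∫ ξ, u ξ ^ 2) * √(∫ ξ, ‖h ξ‖ ^ 2)
      + √(∫ ω, g ω ^ 2 ∂ν) * √(∫ ω, ‖Bf f h ω x‖ ^ 2 ∂ν) := by
  set χ : ℝ → ℂ := fun ξ => ((Real.fourierChar (inner ℝ ξ x) : Circle) : ℂ) with hχ
  have hχc : Continuous χ := continuous_char.comp (continuous_id.prodMk continuous_const)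
  have hχn : ∀ ξ, ‖χ ξ‖ = 1 := fun ξ => Circle.norm_coe _
  have hF : 𝓕⁻ h x = ∫ ξ, χ ξ * h ξ := by
    rw [Real.fourierInv_eq]
    rfl
  have hum : AEStronglyMeasurable (fun ξ => (u ξ : ℂ)) volume :=
    Complex.continuous_ofReal.comp_aestronglyMeasurable hu.1
  have huC : MemLp (fun ξ => (u ξ : ℂ)) 2 volume := by
    refine MemLp.of_le_mul (c := 1) hu hum (Eventually.of_forall fun ξ => ?_)
    simp
  have huh : Integrable (fun ξ => (u ξ : ℂ) * h ξ) volume := huC.integrable_mul hh2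
  have hχuh : Integrable (fun ξ => χ ξ * ((u ξ : ℂ) * h ξ)) volume := by
    refine huh.bdd_mul (c := 1) hχc.aestronglyMeasurable (Eventually.of_forall fun ξ => ?_)
    rw [hχn]
  have hχh : Integrable (fun ξ => χ ξ * h ξ) volume := by
    refine hh1.bdd_mul (c := 1) hχc.aestronglyMeasurable (Eventually.of_forall fun ξ => ?_)
    rw [hχn]
  -- the low frequency part
  have hA : ‖∫ ξ, χ ξ * ((u ξ : ℂ) * h ξ)‖ ≤ √(∫ ξ, u ξ ^ 2) * √(∫ ξ, ‖h ξ‖ ^ 2) := by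
    calc ‖∫ ξ, χ ξ * ((u ξ : ℂ) * h ξ)‖ ≤ ∫ ξ, ‖χ ξ * ((u ξ : ℂ) * h ξ)‖ :=
          norm_integral_le_integral_norm _
      _ = ∫ ξ, ‖u ξ‖ * ‖h ξ‖ := by
          congr 1
          ext ξ
          rw [norm_mul, hχn, one_mul, norm_mul, Complex.norm_real]
      _ ≤ √(∫ ξ, ‖u ξ‖ ^ 2) * √(∫ ξ, ‖h ξ‖ ^ 2) := integral_norm_mul_norm_le hu hh2
      _ = √(∫ ξ, u ξ ^ 2) * √(∫ ξ, ‖h ξ‖ ^ 2) := by
          simp only [Real.norm_eq_abs, sq_abs]
  -- the high frequency part, Fubini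
  let G : Ω × ℝ → ℂ := fun p => χ p.2 * ((g p.1 * f p.1 p.2 : ℝ) : ℂ) * h p.2
  have hGm : AEStronglyMeasurable G (ν.prod volume) := by
    have h1 : AEStronglyMeasurable (fun p : Ω × ℝ => χ p.2) (ν.prod volume) :=
      (hχc.measurable.comp measurable_snd).aestronglyMeasurable
    have h2 : AEStronglyMeasurable (fun p : Ω × ℝ => ((g p.1 * f p.1 p.2 : ℝ) : ℂ)) (ν.prod volume) := by
      apply Complex.continuous_ofReal.comp_aestronglyMeasurable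
      exact hg.1.comp_fst.mul hf.aestronglyMeasurable
    have h3 : AEStronglyMeasurable (fun p : Ω × ℝ => h p.2) (ν.prod volume) := hh1.1.comp_snd
    exact (h1.mul h2).mul h3
  have hGnorm : ∀ p, ‖G p‖ = |g p.1 * f p.1 p.2| * ‖h p.2‖ := by
    intro p
    simp only [G, norm_mul, hχn, one_mul, Complex.norm_real, Real.norm_eq_abs]
    rw [abs_mul]
  have hGint : Integrable G (ν.prod volume) := by
    rw [integrable_prod_iff' hGm]
    constructor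
    · filter_upwards [hC] with ξ hξ
      have : (fun ω => G (ω, ξ)) = fun ω => χ ξ * ((g ω * f ω ξ : ℝ) : ℂ) * h ξ := rfl
      rw [this]
      exact (hξ.1.ofReal.const_mul _).mul_const _
    · have hb' : Integrable (fun ξ => C * ‖h ξ‖) volume := hh1.norm.const_mul C
      refine hb'.mono' ?_ ?_
      · have h0 : AEStronglyMeasurable (fun p : ℝ × Ω => ‖G (p.2, p.1)‖) (volume.prod ν) :=
          hGm.norm.prod_swap
        exact h0.integral_prod_right'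
      · filter_upwards [hC] with ξ hξ
        have e : ∫ ω, ‖G (ω, ξ)‖ ∂ν = (∫ ω, |g ω * f ω ξ| ∂ν) * ‖h ξ‖ := by
          simp only [hGnorm]
          rw [integral_mul_const]
        rw [Real.norm_eq_abs, abs_of_nonneg (integral_nonneg fun _ => norm_nonneg _), e]
        exact mul_le_mul_of_nonneg_right hξ.2 (norm_nonneg _)
  have hswap := integral_integral_swap (f := fun ω ξ => G (ω, ξ)) hGint
  -- inner integrals
  have hinner1 : ∀ᵐ ξ, ∫ ω, G (ω, ξ) ∂ν = χ ξ * ((1 - u ξ : ℝ) * h ξ) := by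
    filter_upwards [hdec] with ξ hξ
    have : (fun ω => G (ω, ξ)) = fun ω => χ ξ * ((g ω * f ω ξ : ℝ) : ℂ) * h ξ := rfl
    rw [this, integral_mul_const, integral_const_mul, integral_complex_ofReal, hξ]
    ring
  have hinner2 : ∀ ω, ∫ ξ, G (ω, ξ) = (g ω : ℂ) * Bf f h ω x := by
    intro ω
    rw [Bf_apply, ← integral_const_mul]
    congr 1
    ext ξ
    simp only [G, smul_eq_mul]
    push_cast
    ring
  have hD : ∫ ξ, χ ξ * ((1 - u ξ : ℝ) * h ξ) = ∫ ω, (g ω : ℂ) * Bf f h ω x ∂ν := by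
    rw [← integral_congr_ae hinner1, ← hswap]
    simp only [hinner2]
  have hsplit : ∫ ξ, χ ξ * h ξ = (∫ ξ, χ ξ * ((u ξ : ℂ) * h ξ)) + ∫ ξ, χ ξ * ((1 - u ξ : ℝ) * h ξ) := by
    have hi2 : Integrable (fun ξ => χ ξ * ((1 - u ξ : ℝ) * h ξ)) volume := by
      have : (fun ξ => χ ξ * ((1 - u ξ : ℝ) * h ξ)) = fun ξ => χ ξ * h ξ - χ ξ * ((u ξ : ℂ) * h ξ) := by
        ext ξ
        push_cast
        ring
      rw [this]
      exact hχh.sub hχuh
    rw [← integral_add hχuh hi2]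
    congr 1
    ext ξ
    push_cast
    ring
  have hE : ‖∫ ω, (g ω : ℂ) * Bf f h ω x ∂ν‖ ≤
      √(∫ ω, g ω ^ 2 ∂ν) * √(∫ ω, ‖Bf f h ω x‖ ^ 2 ∂ν) := by
    calc ‖∫ ω, (g ω : ℂ) * Bf f h ω x ∂ν‖ ≤ ∫ ω, ‖(g ω : ℂ) * Bf f h ω x‖ ∂ν :=
          norm_integral_le_integral_norm _
      _ = ∫ ω, ‖g ω‖ * ‖Bf f h ω x‖ ∂ν := by
          congr 1
          ext ω
          rw [norm_mul, Complex.norm_real]
      _ ≤ √(∫ ω, ‖g ω‖ ^ 2 ∂ν) * √(∫ ω, ‖Bf f h ω x‖ ^ 2 ∂ν) := integral_norm_mul_norm_le hg hb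
      _ = √(∫ ω, g ω ^ 2 ∂ν) * √(∫ ω, ‖Bf f h ω x‖ ^ 2 ∂ν) := by
          simp only [Real.norm_eq_abs, sq_abs]
  rw [hF, hsplit, hD]
  exact (norm_add_le _ _).trans (add_le_add hA hE)

end Vale.Agent.Lib.P371
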