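import Vale.Agent.Lib.P371.Pointwise

open MeasureTheory FourierTransform SchwartzMap Set Filter
open scoped ENNReal Topology InnerProductSpace

noncomputable section

namespace Vale.Agent.Lib.P371

variable {E : Type*} [NormedAddCommGroup E] [InnerProductSpace ℂ E] [CompleteSpace E]
  [MeasurableSpace E] [BorelSpace E]
variable {ι : Type*} [Fintype ι] [DecidableEq ι]

lemma integrable_sq_norm {α F : Type*} [MeasurableSpace α] {μ : Measure α} [NormedAddCommGroup F]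
    {a : α → F} (ha : MemLp a 2 μ) : Integrable (fun x => ‖a x‖ ^ 2) μ :=
  (memLp_two_iff_integrable_sq_norm ha.1).mp ha

/-- The inner product of two `L²` functions is integrable. -/
lemma integrable_inner_of_memLp {a b : ℝ → E} (ha : StronglyMeasurable a)
    (hb : StronglyMeasurable b) (ha2 : MemLp a 2 volume) (hb2 : MemLp b 2 volume) :
    Integrable (fun ξ => ⟪a ξ, b ξ⟫_ℂ) volume := by
  have h : Integrable (fun ξ => ‖a ξ‖ * ‖b ξ‖) volume := ha2.norm.integrable_mul hb2.norm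
  refine h.mono' (ha.inner hb).aestronglyMeasurable (Eventually.of_forall fun ξ => ?_)
  exact norm_inner_le_norm _ _

/-- The norm square of a linear combination of an orthonormal family. -/
lemma integral_norm_sq_comb {φ : ι → ℝ → E} (hm : ∀ j, StronglyMeasurable (φ j))
    (h2 : ∀ j, MemLp (φ j) 2 volume)
    (orth : ∀ i j, ∫ ξ, ⟪φ i ξ, φ j ξ⟫_ℂ = if i = j then (1 : ℂ) else 0) (c : ι → ℂ) :
    ∫ ξ, ‖∑ j, c j • φ j ξ‖ ^ 2 = ∑ j, ‖c j‖ ^ 2 := by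
  have h1 : ∀ ξ, ((‖∑ j, c j • φ j ξ‖ ^ 2 : ℝ) : ℂ) =
      ∑ i, ∑ j, (starRingEnd ℂ (c i) * c j) * ⟪φ i ξ, φ j ξ⟫_ℂ := by
    intro ξ
    have e : ((‖∑ j, c j • φ j ξ‖ ^ 2 : ℝ) : ℂ) = ⟪∑ j, c j • φ j ξ, ∑ j, c j • φ j ξ⟫_ℂ := by
      push_cast
      exact (inner_self_eq_norm_sq_to_K (𝕜 := ℂ) (∑ j, c j • φ j ξ)).symm
    rw [e, sum_inner]
    simp only [inner_sum, inner_smul_left, inner_smul_right]
    refine Finset.sum_congr rfl fun i _ => Finset.sum_congr rfl fun j _ => ?_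
    ring
  have h3 : ((∫ ξ, ‖∑ j, c j • φ j ξ‖ ^ 2 : ℝ) : ℂ) = ((∑ j, ‖c j‖ ^ 2 : ℝ) : ℂ) := by
    rw [← integral_complex_ofReal]
    simp only [h1]
    rw [integral_finsetSum]
    · simp only [integral_finsetSum _ (fun j _ => (integrable_inner_of_memLp (hm _) (hm j) (h2 _) (h2 j)).const_mul _)]
      simp only [integral_const_mul, orth]
      push_cast
      refine Finset.sum_congr rfl fun i _ => ?_
      simp only [mul_ite, mul_one, mul_zero, Finset.sum_ite_eq, Finset.mem_univ, if_true]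
      rw [Complex.conj_mul']
    · intro i _
      exact integrable_finsetSum _ fun j _ =>
        (integrable_inner_of_memLp (hm _) (hm j) (h2 _) (h2 j)).const_mul _
  exact_mod_cast h3

/-- Linearity of the Fourier inversion along a functional `⟪v, ·⟫`. -/
lemma fourierInv_comb {a : ι → ℝ → E} (h1 : ∀ j, Integrable (a j)) (c : ι → ℂ) (v : E) (x : ℝ) :
    𝓕⁻ (fun ξ => ∑ j, c j * ⟪v, a j ξ⟫_ℂ) x = ∑ j, c j * ⟪v, 𝓕⁻ (a j) x⟫_ℂ := by
  have hχc : Continuous fun ξ : ℝ => ((Real.fourierChar (inner ℝ ξ x) : Circle) : ℂ) :=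
    continuous_char.comp (continuous_id.prodMk continuous_const)
  have hb : ∀ j, Integrable (fun ξ => ((Real.fourierChar (inner ℝ ξ x) : Circle) : ℂ) • a j ξ) := by
    intro j
    refine (h1 j).bdd_smul 1 hχc.aestronglyMeasurable (Eventually.of_forall fun ξ => ?_)
    exact (Circle.norm_coe _).le
  simp only [Real.fourierInv_eq]
  change ∫ ξ, ((Real.fourierChar (inner ℝ ξ x) : Circle) : ℂ) • ∑ j, c j * ⟪v, a j ξ⟫_ℂ = _
  have e : ∀ ξ, ((Real.fourierChar (inner ℝ ξ x) : Circle) : ℂ) • ∑ j, c j * ⟪v, a j ξ⟫_ℂ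
      = ∑ j, c j * ⟪v, ((Real.fourierChar (inner ℝ ξ x) : Circle) : ℂ) • a j ξ⟫_ℂ := by
    intro ξ
    rw [Finset.smul_sum]
    refine Finset.sum_congr rfl fun j _ => ?_
    rw [inner_smul_right, smul_eq_mul]
    ring
  simp only [e]
  rw [integral_finsetSum _ fun j _ => ((hb j).const_inner v).const_mul _]
  refine Finset.sum_congr rfl fun j _ => ?_
  rw [integral_const_mul, integral_inner (hb j)]
  rfl

variable {Ω : Type*} [MeasurableSpace Ω] {ν : Measure Ω} [SFinite ν]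

/-- The key pointwise bound for an orthonormal family. -/
lemma rho_bound {φ : ι → ℝ → E} (hm : ∀ j, StronglyMeasurable (φ j))
    (h1 : ∀ j, Integrable (φ j)) (h2 : ∀ j, MemLp (φ j) 2 volume)
    (orth : ∀ i j, ∫ ξ, ⟪φ i ξ, φ j ξ⟫_ℂ = if i = j then (1 : ℂ) else 0)
    {u : ℝ → ℝ} (hu : MemLp u 2 volume)
    {f : Ω → ℝ → ℝ} (hf : Measurable (Function.uncurry f))
    (hfb : ∀ ω, ∃ C, ∀ ξ, |f ω ξ| ≤ C)
    {g : Ω → ℝ} (hg : MemLp g 2 ν)
    (hdec : ∀ᵐ ξ, ∫ ω, g ω * f ω ξ ∂ν = 1 - u ξ)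
    {C : ℝ} (hC : ∀ᵐ ξ, Integrable (fun ω => g ω * f ω ξ) ν ∧ ∫ ω, |g ω * f ω ξ| ∂ν ≤ C)
    (x : ℝ) (hb : ∀ j, MemLp (fun ω => Bf f (φ j) ω x) 2 ν) (v : E) (hv : ‖v‖ = 1) :
    √(∑ j, ‖⟪v, 𝓕⁻ (φ j) x⟫_ℂ‖ ^ 2) ≤ √(∫ ξ, u ξ ^ 2)
      + √(∫ ω, g ω ^ 2 ∂ν) * √(∑ j, ∫ ω, ‖⟪v, Bf f (φ j) ω x⟫_ℂ‖ ^ 2 ∂ν) := by
  set a : ι → ℂ := fun j => ⟪v, 𝓕⁻ (φ j) x⟫_ℂ with ha
  set ρ : ℝ := ∑ j, ‖a j‖ ^ 2 with hρ
  have hρ0 : 0 ≤ ρ := Finset.sum_nonneg fun j _ => by positivity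
  rcases eq_or_lt_of_le hρ0 with h0 | hpos
  · rw [← h0, Real.sqrt_zero]
    positivity
  set r : ℝ := √ρ with hr
  have hr0 : 0 < r := Real.sqrt_pos.mpr hpos
  have hrr : r ^ 2 = ρ := Real.sq_sqrt hρ0
  set c : ι → ℂ := fun j => (starRingEnd ℂ (a j)) / r with hc
  have hcn : ∀ j, ‖c j‖ = ‖a j‖ / r := by
    intro j
    simp only [hc]
    rw [norm_div, RCLike.norm_conj, Complex.norm_real, Real.norm_eq_abs, abs_of_pos hr0]
  have hc1 : ∑ j, ‖c j‖ ^ 2 = 1 := by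
    simp only [hcn, div_pow]
    rw [← Finset.sum_div, ← hρ, hrr, div_self hpos.ne']
  set y : ℝ → E := fun ξ => ∑ j, c j • φ j ξ with hy
  set h : ℝ → ℂ := fun ξ => ∑ j, c j * ⟪v, φ j ξ⟫_ℂ with hh
  have hhm : StronglyMeasurable h := by
    apply Finset.stronglyMeasurable_fun_sum
    intro j _
    exact stronglyMeasurable_const.mul (stronglyMeasurable_const.inner (hm j))
  have hh1 : Integrable h := by
    apply integrable_finsetSum
    intro j _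
    exact ((h1 j).const_inner v).const_mul _
  have hh2 : MemLp h 2 volume := by
    apply memLp_finsetSum
    intro j _
    exact ((h2 j).const_inner v).const_mul _
  have hyh : ∀ ξ, h ξ = ⟪v, y ξ⟫_ℂ := by
    intro ξ
    simp only [hh, hy, inner_sum, inner_smul_right]
  have hhn : ∫ ξ, ‖h ξ‖ ^ 2 ≤ 1 := by
    have hy2 : MemLp y 2 volume := by
      apply memLp_finsetSum
      intro j _
      exact (h2 j).const_smul _
    calc ∫ ξ, ‖h ξ‖ ^ 2 ≤ ∫ ξ, ‖y ξ‖ ^ 2 := by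
          apply integral_mono (integrable_sq_norm hh2) (integrable_sq_norm hy2)
          intro ξ
          simp only [hyh]
          have := norm_inner_le_norm (𝕜 := ℂ) v (y ξ)
          rw [hv, one_mul] at this
          exact pow_le_pow_left₀ (norm_nonneg _) this 2
      _ = 1 := by rw [hy, integral_norm_sq_comb hm h2 orth c, hc1]
  have hbound : ∀ ω, ∃ K, ∀ ξ, ‖(f ω ξ : ℂ)‖ ≤ K := by
    intro ω
    obtain ⟨K, hK⟩ := hfb ω
    exact ⟨K, fun ξ => by simpa using hK ξ⟩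
  have hfm : ∀ ω, StronglyMeasurable fun ξ => (f ω ξ : ℂ) := fun ω =>
    (Complex.measurable_ofReal.comp (hf.comp (measurable_const.prodMk measurable_id))).stronglyMeasurable
  have hfa : ∀ ω j, Integrable fun ξ => (f ω ξ : ℂ) • φ j ξ := by
    intro ω j
    obtain ⟨K, hK⟩ := hbound ω
    exact (h1 j).bdd_smul K (hfm ω).aestronglyMeasurable (Eventually.of_forall hK)
  have hBh : ∀ ω, Bf f h ω x = ∑ j, c j * ⟪v, Bf f (φ j) ω x⟫_ℂ := by
    intro ω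
    simp only [Bf]
    rw [← fourierInv_comb (hfa ω) c v x]
    have e : (fun ξ => (f ω ξ : ℂ) • h ξ) =
        fun ξ => ∑ j, c j * ⟪v, (f ω ξ : ℂ) • φ j ξ⟫_ℂ := by
      ext ξ
      simp only [hh, inner_smul_right, smul_eq_mul, Finset.mul_sum]
      refine Finset.sum_congr rfl fun j _ => ?_
      ring
    rw [e]
  have hinv : 𝓕⁻ h x = r := by
    rw [hh, fourierInv_comb h1 c v x]
    have : ∀ j, c j * ⟪v, 𝓕⁻ (φ j) x⟫_ℂ = ((‖a j‖ ^ 2 : ℝ) : ℂ) / r := by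
      intro j
      simp only [hc]
      change starRingEnd ℂ (a j) / r * a j = _
      rw [div_mul_eq_mul_div, Complex.conj_mul']
      push_cast
      rfl
    simp only [this]
    rw [← Finset.sum_div]
    have e : ∑ j, ((‖a j‖ ^ 2 : ℝ) : ℂ) = ((r ^ 2 : ℝ) : ℂ) := by
      rw [hrr, hρ]
      push_cast
      rfl
    rw [e]
    push_cast
    field_simp
  -- Cauchy-Schwarz for the sum
  have hCS : ∀ ω, ‖Bf f h ω x‖ ^ 2 ≤ ∑ j, ‖⟪v, Bf f (φ j) ω x⟫_ℂ‖ ^ 2 := by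
    intro ω
    rw [hBh]
    have h1' : ‖∑ j, c j * ⟪v, Bf f (φ j) ω x⟫_ℂ‖ ≤ ∑ j, ‖c j‖ * ‖⟪v, Bf f (φ j) ω x⟫_ℂ‖ := by
      refine (norm_sum_le _ _).trans (Finset.sum_le_sum fun j _ => ?_)
      rw [norm_mul]
    have h2' := Finset.sum_mul_sq_le_sq_mul_sq Finset.univ (fun j => ‖c j‖)
      (fun j => ‖⟪v, Bf f (φ j) ω x⟫_ℂ‖)
    rw [hc1, one_mul] at h2'
    exact (pow_le_pow_left₀ (norm_nonneg _) h1' 2).trans h2'
  have hbv : ∀ j, MemLp (fun ω => ⟪v, Bf f (φ j) ω x⟫_ℂ) 2 ν := fun j => (hb j).const_inner v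
  have hbh : MemLp (fun ω => Bf f h ω x) 2 ν := by
    simp only [hBh]
    apply memLp_finsetSum
    intro j _
    exact (hbv j).const_mul _
  have hmain := scalar_bound hh1 hh2 hu hf hg hdec hC x hbh
  rw [hinv, Complex.norm_real, Real.norm_eq_abs, abs_of_pos hr0] at hmain
  have hnn : ∫ ξ, ‖h ξ‖ ^ 2 ≥ 0 := integral_nonneg fun _ => by positivity
  have hs1 : √(∫ ξ, ‖h ξ‖ ^ 2) ≤ 1 := by
    exact Real.sqrt_le_one.mpr hhn
  have hs2 : ∫ ω, ‖Bf f h ω x‖ ^ 2 ∂ν ≤ ∑ j, ∫ ω, ‖⟪v, Bf f (φ j) ω x⟫_ℂ‖ ^ 2 ∂ν := by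
    rw [← integral_finsetSum _ fun j _ => integrable_sq_norm (hbv j)]
    exact integral_mono (integrable_sq_norm hbh)
      (integrable_finsetSum _ fun j _ => integrable_sq_norm (hbv j)) hCS
  calc r ≤ _ := hmain
    _ ≤ √(∫ ξ, u ξ ^ 2) * 1 + √(∫ ω, g ω ^ 2 ∂ν) * √(∑ j, ∫ ω, ‖⟪v, Bf f (φ j) ω x⟫_ℂ‖ ^ 2 ∂ν) := by
        gcongr
    _ = _ := by ring

end Vale.Agent.Lib.P371
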